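import Vale.Agent.P367.PS

/-! Existence, measurability and continuity of the Gram matrix of a circuit with labels. -/

namespace Vale.Agent.P367

open MeasureTheory ProbabilityTheory Filter Topology Finset Vale.Agent.P146

noncomputable section

/-- a word whose shape is fixed and whose matrices depend continuously on a parameter -/
inductive CW {T : Type} [TopologicalSpace T] : (T → List Lt) → Prop
  | nil : CW fun _ => []
  | m {A : T → M2} {r : T → List Lt} : Continuous A → CW r → CW fun t => .m (A t) :: r t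
  | w {j : ℕ} {g : ℝ} {r : T → List Lt} : CW r → CW fun t => .w j g :: r t

theorem CW.append {T : Type} [TopologicalSpace T] {r r' : T → List Lt} (h : CW r) (h' : CW r') :
    CW fun t => r t ++ r' t := by
  induction h with
  | nil => exact h'
  | m hA _ ih => exact CW.m hA ih
  | w _ ih => exact CW.w ih

theorem CW.inv {T : Type} [TopologicalSpace T] {r : T → List Lt} (h : CW r) :
    CW fun t => ((r t).map Lt.inv).reverse := by
  induction h with
  | nil => exact CW.nil
  | m hA _ ih =>
    simp only [List.map_cons, List.reverse_cons]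
    exact ih.append (CW.m hA.matrix_conjTranspose CW.nil)
  | w _ ih =>
    simp only [List.map_cons, List.reverse_cons]
    exact ih.append (CW.w CW.nil)

theorem cw_fw {T : Type} [TopologicalSpace T] (γ : ℕ → ℝ) {A : T → ℕ → M2}
    (hA : ∀ i, Continuous fun t => A t i) (j : ℕ) : CW fun t => fw γ (A t) j := by
  induction j with
  | zero => exact CW.nil
  | succ j ih => exact ih.append (CW.w (CW.m (hA j) CW.nil))

theorem cw_zw {T : Type} [TopologicalSpace T] (γ : ℕ → ℝ) {A : T → ℕ → M2}
    (hA : ∀ i, Continuous fun t => A t i) (j : ℕ) : CW fun t => zw γ (A t) j :=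
  (cw_fw γ hA j).append (CW.m continuous_const (cw_fw γ hA j).inv)

theorem continuous_Bf {T : Type} [TopologicalSpace T] (N : ℕ) {G : T → ℕ → ℕ → ℂ}
    (hG : ∀ i j, Continuous fun t => G t i j) (h k : ℕ → ℝ) :
    Continuous fun t => Bf N (G t) h k :=
  continuous_finsetSum _ fun i _ => continuous_finsetSum _ fun j _ =>
    continuous_const.mul (hG i j)

theorem CW.ampl {T : Type} [TopologicalSpace T] {r : T → List Lt} (h : CW r) (N : ℕ)
    {G : T → ℕ → ℕ → ℂ} (hG : ∀ i j, Continuous fun t => G t i j) (a : Bool) (x : ℕ → ℝ) :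
    Continuous fun t => ampl N (G t) (r t) a x := by
  induction h generalizing a x with
  | nil =>
    simp only [P367.ampl]
    have := continuous_Bf N hG x x
    fun_prop
  | m hA _ ih =>
    simp only [P367.ampl]
    exact continuous_finsetSum _ fun b _ => (hA.matrix_elem b a).mul (ih b x)
  | @w j g r _ ih =>
    simp only [P367.ampl]
    have := continuous_Bf N hG (Pi.single j 1) x
    exact Continuous.mul (by fun_prop) (ih a _)

theorem CW.vamp {T : Type} [TopologicalSpace T] {r : T → List Lt} (h : CW r) (N : ℕ)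
    {G : T → ℕ → ℕ → ℂ} (hG : ∀ i j, Continuous fun t => G t i j) :
    Continuous fun t => vamp N (G t) (r t) :=
  continuous_finsetSum _ fun a _ => continuous_const.mul (h.ampl N hG a 0)

/-- the integrand of the Gram recursion -/
def gint (γ : ℕ → ℝ) (j k : ℕ) (G : ℕ → ℕ → ℂ) (A : ℕ → M2) : ℂ :=
  vamp (max j k) G (zw γ A k ++ zw γ A j)

theorem continuous_gint (γ : ℕ → ℝ) (j k : ℕ) :
    Continuous fun q : (ℕ → ℕ → ℂ) × (ℕ → M2) => gint γ j k q.1 q.2 :=
  ((cw_zw γ (A := fun q : (ℕ → ℕ → ℂ) × (ℕ → M2) => q.2) (fun i => by fun_prop) k).append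
    (cw_zw γ (A := fun q : (ℕ → ℕ → ℂ) × (ℕ → M2) => q.2) (fun i => by fun_prop) j)).vamp _
    fun i j => by fun_prop

theorem tendsto_gint (γ : ℕ → ℝ) (j k : ℕ) {H : ℕ → ℕ → ℕ → ℂ} {G : ℕ → ℕ → ℂ} {B : ℕ → ℕ → M2}
    {A : ℕ → M2} (h1 : Tendsto H atTop (𝓝 G)) (h2 : Tendsto B atTop (𝓝 A)) :
    Tendsto (fun n => gint γ j k (H n) (B n)) atTop (𝓝 (gint γ j k G A)) := by
  have h3 := ((continuous_gint γ j k).tendsto (G, A)).comp (h1.prodMk_nhds h2)
  simpa only [Function.comp_def] using h3

theorem ampl_congr {N : ℕ} {G G' : ℕ → ℕ → ℂ} (hN : ∀ i < N, ∀ j < N, G i j = G' i j)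
    (r : List Lt) (a : Bool) (x : ℕ → ℝ) : ampl N G r a x = ampl N G' r a x := by
  have hB : ∀ a b, Bf N G a b = Bf N G' a b := fun a b =>
    Finset.sum_congr rfl fun i hi => Finset.sum_congr rfl fun j hj => by
      rw [hN i (Finset.mem_range.1 hi) j (Finset.mem_range.1 hj)]
  induction r generalizing a x with
  | nil => simp only [ampl, hB]
  | cons y r ih =>
    cases y with
    | m A => simp only [ampl, ih]
    | w j g => simp only [ampl, ih, hB]

theorem gint_congr {γ : ℕ → ℝ} {j k : ℕ} {G G' : ℕ → ℕ → ℂ}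
    (hN : ∀ i < max j k, ∀ i' < max j k, G i i' = G' i i') (A : ℕ → M2) :
    gint γ j k G A = gint γ j k G' A := by
  simp only [gint, vamp, ampl_congr hN]

theorem t_fw_congr {γ γ' : ℕ → ℝ} {A A' : ℕ → M2} {j : ℕ} (hγ : ∀ i < j, γ i = γ' i)
    (h : ∀ i < j, A i = A' i) : fw γ A j = fw γ' A' j := by
  induction j with
  | zero => rfl
  | succ j ih =>
    simp only [fw]
    rw [ih (fun i hi => hγ i (by omega)) (fun i hi => h i (by omega)), h j (by omega),
      hγ j (by omega)]

theorem gint_congr' {γ γ' : ℕ → ℝ} {j k : ℕ} (G : ℕ → ℕ → ℂ) {A A' : ℕ → M2}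
    (hγ : ∀ i < max j k, γ i = γ' i) (h : ∀ i < max j k, A i = A' i) :
    gint γ j k G A = gint γ' j k G A' := by
  simp only [gint, zw]
  rw [t_fw_congr (j := k) (fun i hi => hγ i (by omega)) (fun i hi => h i (by omega)),
    t_fw_congr (j := j) (fun i hi => hγ i (by omega)) (fun i hi => h i (by omega))]

theorem uni_norm_le {V : M2} (h : Uni V) (b c : Bool) : ‖V b c‖ ≤ 1 :=
  entry_norm_bound_of_unitary h b c

theorem gint_bound (γ : ℕ → ℝ) (j k : ℕ) {K : Set (ℕ → ℕ → ℂ)} (hK : IsCompact K) :
    ∃ C : ℝ, ∀ G ∈ K, ∀ A : ℕ → M2, (∀ i, Uni (A i)) → ‖gint γ j k G A‖ ≤ C := by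
  have h1 : IsCompact {A : ℕ → M2 | ∀ i b c, ‖A i b c‖ ≤ 1} := by
    have h2 : IsCompact (Set.univ.pi fun _ : ℕ => Set.univ.pi fun _ : Bool =>
        Set.univ.pi fun _ : Bool => Metric.closedBall (0 : ℂ) 1) :=
      isCompact_univ_pi fun _ => isCompact_univ_pi fun _ => isCompact_univ_pi fun _ =>
        isCompact_closedBall _ _
    have h3 : {A : ℕ → Bool → Bool → ℂ | ∀ i b c, ‖A i b c‖ ≤ 1} = Set.univ.pi fun _ : ℕ =>
        Set.univ.pi fun _ : Bool => Set.univ.pi fun _ : Bool => Metric.closedBall (0 : ℂ) 1 := by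
      ext A
      simp only [Set.mem_pi, Set.mem_ofPred_eq, Set.mem_univ, true_implies,
        mem_closedBall_zero_iff]
    rw [← h3] at h2
    exact h2
  obtain ⟨C, hC⟩ := (hK.prod h1).exists_bound_of_continuousOn
    (continuous_gint γ j k).continuousOn
  exact ⟨C, fun G hG A hA => hC (G, A) ⟨hG, fun i b c => uni_norm_le (hA i) b c⟩⟩

variable {Λ : Type} [MeasurableSpace Λ]

theorem measurable_gint (γ : ℕ → ℝ) (j k : ℕ) (G : ℕ → ℕ → ℂ) {V : ℕ → Λ → M2}
    (hV : ∀ i b c, Measurable fun l => V i l b c) :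
    Measurable fun l => gint γ j k G fun i => V i l := by
  have h1 : Continuous fun A : ℕ → Bool → Bool → ℂ => gint γ j k G A :=
    (continuous_gint γ j k).comp (f := fun A : ℕ → M2 => (G, A)) (by fun_prop)
  exact h1.measurable.comp (f := fun l i b c => V i l b c)
    (measurable_pi_lambda _ fun i => measurable_pi_lambda _ fun b =>
      measurable_pi_lambda _ fun c => hV i b c)

theorem isGram_iff {ν : Measure Λ} {γ : ℕ → ℝ} {V : ℕ → Λ → M2} {G : ℕ → ℕ → ℂ} :
    IsGram ν γ V G ↔ ∀ j k, G j k = ∫ l, gint γ j k G (fun i => V i l) ∂ν := Iff.rfl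

/-- the recursion has a solution -/
theorem exists_isGram (ν : Measure Λ) (γ : ℕ → ℝ) (V : ℕ → Λ → M2) : ∃ G, IsGram ν γ V G := by
  let Φ : (ℕ → ℕ → ℂ) → ℕ → ℕ → ℂ := fun G j k => ∫ l, gint γ j k G (fun i => V i l) ∂ν
  have h1 : ∀ n m j k, max j k < n → max j k < m → Φ^[n] 0 j k = Φ^[m] 0 j k := by
    intro n
    induction n with
    | zero => intro m j k h; omega
    | succ n ih =>
      intro m j k h h'
      obtain ⟨m, rfl⟩ : ∃ m', m = m' + 1 := ⟨m - 1, by omega⟩
      rw [Function.iterate_succ_apply', Function.iterate_succ_apply']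
      simp only [Φ]
      congr 1
      funext l
      exact gint_congr (fun i hi i' hi' => ih m i i' (by omega) (by omega)) _
  refine ⟨fun j k => Φ^[max j k + 1] 0 j k, isGram_iff.2 fun j k => ?_⟩
  rw [Function.iterate_succ_apply']
  simp only [Φ]
  congr 1
  funext l
  exact gint_congr (fun i hi i' hi' => h1 _ _ i i' (by omega) (by omega)) _

/-- continuity under almost everywhere convergence of the gates below `p` -/
theorem isGram_cont {ν : Measure Λ} [IsFiniteMeasure ν] {γ : ℕ → ℝ} {V : ℕ → Λ → M2}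
    {W : ℕ → ℕ → Λ → M2} {G : ℕ → ℕ → ℂ} {H : ℕ → ℕ → ℕ → ℂ} (hW : ∀ n j, GOK (W n j))
    (hG : IsGram ν γ V G) (hH : ∀ n, IsGram ν γ (W n) (H n)) (p : ℕ)
    (hc : ∀ j < p, ∀ᵐ l ∂ν, Tendsto (fun n => W n j l) atTop (𝓝 (V j l))) :
    ∀ j ≤ p, ∀ k ≤ p, Tendsto (fun n => H n j k) atTop (𝓝 (G j k)) := by
  have key : ∀ N ≤ p + 1, ∀ j < N, ∀ k < N, Tendsto (fun n => H n j k) atTop (𝓝 (G j k)) := by
    intro N
    induction N with
    | zero => intro _ j hj; omega
    | succ N ih =>
      intro hN j hj k hk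
      let H' : ℕ → ℕ → ℕ → ℂ := fun n i i' => if i < N ∧ i' < N then H n i i' else G i i'
      have h1 : Tendsto H' atTop (𝓝 G) := tendsto_pi_nhds.2 fun i => tendsto_pi_nhds.2 fun i' => by
        by_cases h : i < N ∧ i' < N
        · simpa only [H', if_pos h] using ih (by omega) i h.1 i' h.2
        · simpa only [H', if_neg h] using tendsto_const_nhds
      let W' : ℕ → Λ → ℕ → M2 := fun n l i => if i < p then W n i l else 1
      let V' : Λ → ℕ → M2 := fun l i => if i < p then V i l else 1
      have h2 : ∀ n, H n j k = ∫ l, gint γ j k (H' n) (W' n l) ∂ν := fun n => by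
        rw [isGram_iff.1 (hH n) j k]
        congr 1
        funext l
        rw [gint_congr (G' := H' n) (fun i hi i' hi' => (if_pos ⟨by omega, by omega⟩).symm)]
        exact gint_congr' _ (fun _ _ => rfl) fun i hi => (if_pos (by omega)).symm
      have h3 : G j k = ∫ l, gint γ j k G (V' l) ∂ν := by
        rw [isGram_iff.1 hG j k]
        congr 1
        funext l
        exact gint_congr' _ (fun _ _ => rfl) fun i hi => (if_pos (by omega)).symm
      obtain ⟨C, hC⟩ := gint_bound γ j k h1.isCompact_insert_range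
      simp only [h2]
      rw [h3]
      refine tendsto_integral_of_dominated_convergence (fun _ => C) (fun n => ?_)
        (integrable_const C) (fun n => Eventually.of_forall fun l => ?_) ?_
      · refine (measurable_gint γ j k (H' n) (V := fun i l => W' n l i)
          fun i b c => ?_).aestronglyMeasurable
        by_cases h : i < p
        · simpa only [W', if_pos h] using (hW n i).1 b c
        · simpa only [W', if_neg h] using measurable_const
      · refine hC _ (Or.inr ⟨n, rfl⟩) _ fun i => ?_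
        by_cases h : i < p
        · simpa only [W', if_pos h] using (hW n i).2 l
        · simpa only [W', if_neg h] using one_mem _
      · have h4 : ∀ᵐ l ∂ν, ∀ i, i < p → Tendsto (fun n => W n i l) atTop (𝓝 (V i l)) :=
          ae_all_iff.2 fun i => by
            by_cases h : i < p
            · exact (hc i h).mono fun l hl _ => hl
            · exact Eventually.of_forall fun l hl => absurd hl h
        refine h4.mono fun l hl => ?_
        have h5 : Tendsto (fun n => W' n l) atTop (𝓝 (V' l)) := tendsto_pi_nhds.2 fun i => by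
          by_cases h : i < p
          · simpa only [W', V', if_pos h] using hl i h
          · simpa only [W', V', if_neg h] using tendsto_const_nhds
        exact tendsto_gint γ j k h1 h5
  intro j hj k hk
  exact key (p + 1) le_rfl j (by omega) k (by omega)

theorem val3_cont {ν : Measure Λ} [IsFiniteMeasure ν] {γ : ℕ → ℝ} {V : ℕ → Λ → M2}
    {W : ℕ → ℕ → Λ → M2} {G : ℕ → ℕ → ℂ} {H : ℕ → ℕ → ℕ → ℂ} (hW : ∀ n j, GOK (W n j))
    (hG : IsGram ν γ V G) (hH : ∀ n, IsGram ν γ (W n) (H n)) (p : ℕ)
    (hc : ∀ j < p, ∀ᵐ l ∂ν, Tendsto (fun n => W n j l) atTop (𝓝 (V j l))) :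
    Tendsto (fun n => val3 γ (H n) p) atTop (𝓝 (val3 γ G p)) := by
  refine tendsto_finsetSum _ fun t ht => Tendsto.const_mul _ ?_
  exact (Complex.continuous_im.tendsto _).comp
    ((isGram_cont hW hG hH p hc p le_rfl t (Finset.mem_range.1 ht).le).pow 2)

end

end Vale.Agent.P367
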