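import Vale.Agent.P367.PS

/-! Part T: definitions. -/

set_option linter.all false

namespace Vale.Agent.P367.PT

open MeasureTheory ProbabilityTheory Filter Topology Finset Vale.Agent.P146

noncomputable section

/-- `exp (-i t Y)` -/
def RY (t : ℝ) : M2 :=
  Matrix.of fun a b => if a = b then (Real.cos t : ℂ) else ((spin b * Real.sin t : ℝ) : ℂ)

/-- Euler angles -/
def Eu (x : ℝ × ℝ × ℝ) : M2 := RZ x.1 * RY x.2.1 * RZ x.2.2

/-- finite products of the gates of `Q2` -/
def Wds : Submonoid (ℝ → M2) :=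
  Submonoid.closure {W | ∃ β τ : ℝ, W = fun a => RX β * RZ (τ * a)}

/-- almost everywhere limits of finite products -/
def Cl (W : ℝ → M2) : Prop :=
  ∃ P : ℕ → ℝ → M2, (∀ n, P n ∈ Wds) ∧
    ∀ᵐ a ∂gaussianReal 0 1, Tendsto (fun n => P n a) atTop (𝓝 (W a))

end

end Vale.Agent.P367.PT
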