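import Vale.Agent.P367T.Defs

/-! Part T: two by two matrices, Euler angles. -/

set_option linter.all false

namespace Vale.Agent.P367.PT

open MeasureTheory ProbabilityTheory Filter Topology Finset Vale.Agent.P146

noncomputable section

theorem RX_zero : RX 0 = 1 := by
  ext a b
  cases a <;> cases b <;> simp [RX]

theorem RZ_zero : RZ 0 = 1 := by
  ext a b
  cases a <;> cases b <;> simp [RZ]

theorem RY_zero : RY 0 = 1 := by
  ext a b
  cases a <;> cases b <;> simp [RY]

theorem RZ_add (s t : ℝ) : RZ (s + t) = RZ s * RZ t := by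
  rw [RZ, RZ, RZ, Matrix.diagonal_mul_diagonal]
  congr 1
  funext a
  rw [← Complex.exp_add]
  congr 1
  push_cast
  ring

theorem RY_add (s t : ℝ) : RY (s + t) = RY s * RY t := by
  ext a b
  cases a <;> cases b <;>
    simp [RY, Matrix.mul_apply, spin, Complex.cos_add, Complex.sin_add] <;> ring

theorem tEul_RX_add (s t : ℝ) : RX (s + t) = RX s * RX t := by
  ext a b
  cases a <;> cases b <;>
    simp [RX, Matrix.mul_apply, Complex.cos_add, Complex.sin_add] <;> ring_nf <;>
    simp [Complex.I_sq] <;> ring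

theorem tEul_starX (t : ℝ) : star (RX t) = RX (-t) := by
  ext a b
  cases a <;> cases b <;>
    simp [RX, Matrix.star_apply, -Complex.ofReal_cos, -Complex.ofReal_sin, Complex.conj_ofReal]

theorem tEul_starY (t : ℝ) : star (RY t) = RY (-t) := by
  ext a b
  cases a <;> cases b <;>
    simp [RY, spin, Matrix.star_apply, -Complex.ofReal_cos, -Complex.ofReal_sin,
      Complex.conj_ofReal]

theorem tEul_starZ (t : ℝ) : star (RZ t) = RZ (-t) := by
  ext a b
  cases a <;> cases b <;>
    simp [RZ, spin, Matrix.star_apply, ← Complex.exp_conj, Complex.conj_ofReal]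

theorem uni_RX (t : ℝ) : Uni (RX t) := by
  rw [Uni, Matrix.mem_unitaryGroup_iff, tEul_starX, ← tEul_RX_add, add_neg_cancel, RX_zero]

theorem uni_RY (t : ℝ) : Uni (RY t) := by
  rw [Uni, Matrix.mem_unitaryGroup_iff, tEul_starY, ← RY_add, add_neg_cancel, RY_zero]

theorem uni_RZ (t : ℝ) : Uni (RZ t) := by
  rw [Uni, Matrix.mem_unitaryGroup_iff, tEul_starZ, ← RZ_add, add_neg_cancel, RZ_zero]

theorem cont_RX : Continuous RX := by
  refine continuous_matrix fun a b => ?_
  simp only [RX, Matrix.of_apply]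
  split_ifs <;> fun_prop

theorem cont_RY : Continuous RY := by
  refine continuous_matrix fun a b => ?_
  simp only [RY, Matrix.of_apply]
  split_ifs <;> fun_prop

theorem cont_RZ : Continuous RZ := by
  refine continuous_matrix fun a b => ?_
  simp only [RZ, Matrix.diagonal_apply]
  split_ifs <;> fun_prop

theorem tEul_exp (t : ℝ) :
    Complex.exp (Complex.I * t) = Complex.cos t + Complex.sin t * Complex.I := by
  rw [mul_comm, Complex.exp_mul_I]

theorem tEul_exp' (t : ℝ) :
    Complex.exp (-(Complex.I * t)) = Complex.cos t - Complex.sin t * Complex.I := by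
  rw [mul_comm, ← neg_mul, Complex.exp_mul_I, Complex.cos_neg, Complex.sin_neg]
  ring

/-- a quarter turn around the `X` axis (`Real.cos_pi_div_four`, `Real.sin_pi_div_four`) -/
theorem RZ_conj (t : ℝ) : RX (Real.pi / 4) * RY t * RX (-(Real.pi / 4)) = RZ t := by
  have h : ((√2 : ℝ) : ℂ) ^ 2 = 2 := by
    rw [← Complex.ofReal_pow, Real.sq_sqrt (by norm_num)]
    norm_num
  have hI := Complex.I_sq
  ext a b
  cases a <;> cases b <;>
    simp only [RX, RY, RZ, Matrix.mul_apply, Fintype.sum_bool, Matrix.of_apply, Real.cos_neg,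
      Real.sin_neg, Real.cos_pi_div_four, Real.sin_pi_div_four, spin, Matrix.diagonal_apply] <;>
    simp [tEul_exp, tEul_exp'] <;> grind

theorem RY_conj (t : ℝ) : RX (-(Real.pi / 4)) * RZ t * RX (Real.pi / 4) = RY t := by
  rw [← RZ_conj, ← mul_assoc, ← mul_assoc, ← tEul_RX_add, neg_add_cancel, RX_zero, one_mul,
    mul_assoc, ← tEul_RX_add, neg_add_cancel, RX_zero, mul_one]

theorem tEul_Eu (x : ℝ × ℝ × ℝ) (a b : Bool) :
    Eu x a b = Complex.exp (-(Complex.I * (x.1 * spin a : ℝ))) * RY x.2.1 a b *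
      Complex.exp (-(Complex.I * (x.2.2 * spin b : ℝ))) := by
  rw [Eu, RZ, RZ, Matrix.mul_diagonal, Matrix.diagonal_mul]

/-- conjugation by `X` -/
theorem Eu_neg (x : ℝ × ℝ × ℝ) (a b : Bool) : Eu (-x) (!a) (!b) = Eu x a b := by
  rw [tEul_Eu, tEul_Eu]
  cases a <;> cases b <;> simp [RY, spin]

theorem tEul_form (p r : ℂ) (h : ‖p‖ ^ 2 + ‖r‖ ^ 2 = 1) (a b : Bool) :
    Eu ((r.arg - p.arg) / 2, Real.arccos ‖p‖, (-p.arg - r.arg) / 2) a b =
      if a then (if b then p else -(starRingEnd ℂ r)) else (if b then r else starRingEnd ℂ p) := by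
  have h0 := norm_nonneg p
  have h1 : ‖p‖ ≤ 1 := by nlinarith [sq_nonneg ‖r‖]
  have hc : Real.cos (Real.arccos ‖p‖) = ‖p‖ := Real.cos_arccos (by linarith) h1
  have hs : Real.sin (Real.arccos ‖p‖) = ‖r‖ := by
    rw [Real.sin_arccos, show 1 - ‖p‖ ^ 2 = ‖r‖ ^ 2 by linarith, Real.sqrt_sq (norm_nonneg r)]
  have ep := Complex.norm_mul_exp_arg_mul_I p
  have er := Complex.norm_mul_exp_arg_mul_I r
  have ep' := congrArg (starRingEnd ℂ) ep
  have er' := congrArg (starRingEnd ℂ) er
  simp only [map_mul, Complex.conj_ofReal, ← Complex.exp_conj, Complex.conj_I] at ep' er'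
  have key : ∀ (u v w : ℂ) (x : ℂ), u + v = w →
      Complex.exp u * x * Complex.exp v = x * Complex.exp w := fun u v w x e => by
    rw [← e, Complex.exp_add]
    ring
  rw [tEul_Eu]
  cases a <;> cases b <;>
    simp only [RY, Matrix.of_apply, hc, hs, spin, Bool.false_eq_true, Bool.true_eq_false, if_true,
      if_false]
  · rw [← ep']
    exact key _ _ _ _ (by push_cast; ring)
  · rw [one_mul]
    refine Eq.trans (key _ _ _ _ ?_) er
    push_cast
    ring
  · rw [neg_one_mul, Complex.ofReal_neg, ← er', ← neg_mul (‖r‖ : ℂ)]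
    refine key _ _ _ _ ?_
    push_cast
    ring
  · refine Eq.trans (key _ _ _ _ ?_) ep
    push_cast
    ring

/-- Let `D = det V`, `c = exp (I * arg D / 2)`, `p = V true true / c`, `r = V false true / c`.
Then `V false false = c * conj p`, `V true false = -c * conj r`, `‖p‖ ^ 2 + ‖r‖ ^ 2 = 1`. Take
`θ.1 = (arg r - arg p) / 2`, `θ.2.1 = arccos ‖p‖`, `θ.2.2 = (-arg p - arg r) / 2`
(`Complex.measurable_arg`, `Real.measurable_arccos`, `Complex.norm_mul_exp_arg_mul_I`). -/
theorem euler {Λ : Type} [MeasurableSpace Λ] {V : Λ → M2} (hV : GOK V) :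
    ∃ θ : Λ → ℝ × ℝ × ℝ, Measurable θ ∧ ∀ l, ∃ c : ℂ, ‖c‖ = 1 ∧ V l = c • Eu (θ l) := by
  let D : Λ → ℂ := fun l => V l true true * V l false false - V l true false * V l false true
  let c : Λ → ℂ := fun l => Complex.exp (((D l).arg / 2 : ℝ) * Complex.I)
  let p : Λ → ℂ := fun l => V l true true / c l
  let r : Λ → ℂ := fun l => V l false true / c l
  have mD : Measurable D := ((hV.1 _ _).mul (hV.1 _ _)).sub ((hV.1 _ _).mul (hV.1 _ _))
  have mc : Measurable c := Complex.measurable_exp.comp
    ((Complex.measurable_ofReal.comp ((Complex.measurable_arg.comp mD).div_const 2)).mul_const _)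
  have mp : Measurable p := (hV.1 _ _).div mc
  have mr : Measurable r := (hV.1 _ _).div mc
  have ap := Complex.measurable_arg.comp mp
  have ar := Complex.measurable_arg.comp mr
  refine ⟨fun l => (((r l).arg - (p l).arg) / 2, Real.arccos ‖p l‖, (-(p l).arg - (r l).arg) / 2),
    ((ar.sub ap).div_const 2).prodMk
      ((Real.measurable_arccos.comp mp.norm).prodMk ((ap.neg.sub ar).div_const 2)), fun l => ?_⟩
  have hc : ‖c l‖ = 1 := Complex.norm_exp_ofReal_mul_I _
  have hc0 : c l ≠ 0 := Complex.exp_ne_zero _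
  have hcc : c l * starRingEnd ℂ (c l) = 1 := by
    rw [Complex.mul_conj', hc]
    norm_num
  have hU := Matrix.mem_unitaryGroup_iff'.1 (hV.2 l)
  have e1 := congrFun (congrFun hU true) true
  have e2 := congrFun (congrFun hU true) false
  have e3 := congrFun (congrFun hU false) false
  simp only [Matrix.mul_apply, Fintype.sum_bool, Matrix.star_apply, Complex.star_def,
    Matrix.one_apply, if_true, Bool.true_eq_false, if_false] at e1 e2 e3
  have f1 : V l false false = D l * starRingEnd ℂ (V l true true) := by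
    simp only [D]
    linear_combination (-V l false false) * e1 + V l false true * e2
  have f2 : V l true false = -(D l * starRingEnd ℂ (V l false true)) := by
    simp only [D]
    linear_combination (-V l true false) * e1 + V l true true * e2
  have n1 : ‖V l true true‖ ^ 2 + ‖V l false true‖ ^ 2 = 1 := by
    rw [Complex.conj_mul', Complex.conj_mul'] at e1
    exact_mod_cast e1
  have n3 : ‖V l true false‖ ^ 2 + ‖V l false false‖ ^ 2 = 1 := by
    rw [Complex.conj_mul', Complex.conj_mul'] at e3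
    exact_mod_cast e3
  have nD : ‖D l‖ = 1 := by
    rw [f1, f2, norm_neg, norm_mul, norm_mul, Complex.norm_conj, Complex.norm_conj] at n3
    have : ‖D l‖ ^ 2 = 1 := by linear_combination n3 - ‖D l‖ ^ 2 * n1
    exact (pow_eq_one_iff_of_nonneg (norm_nonneg _) two_ne_zero).1 this
  have c2 : D l = c l * c l := by
    rw [← Complex.norm_mul_exp_arg_mul_I (D l), nD, ← Complex.exp_add, Complex.ofReal_one, one_mul]
    congr 1
    push_cast
    ring
  have gp : V l true true = c l * p l := (mul_div_cancel₀ _ hc0).symm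
  have gr : V l false true = c l * r l := (mul_div_cancel₀ _ hc0).symm
  have hn : ‖p l‖ ^ 2 + ‖r l‖ ^ 2 = 1 := by
    rwa [gp, gr, norm_mul, norm_mul, hc, one_mul, one_mul] at n1
  refine ⟨c l, hc, ?_⟩
  ext a b
  rw [Matrix.smul_apply, tEul_form _ _ hn, smul_eq_mul]
  cases a <;> cases b <;> simp only [Bool.false_eq_true, if_true, if_false]
  · rw [f1, gp, c2, map_mul]
    linear_combination (c l * starRingEnd ℂ (p l)) * hcc
  · exact gr
  · rw [f2, gr, c2, map_mul]
    linear_combination (-c l * starRingEnd ℂ (r l)) * hcc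
  · exact gp

end

end Vale.Agent.P367.PT
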