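import Vale.Agent.P367T.Wd

/-! Part T: existence, locality and continuity of the Gram matrix. -/

set_option linter.all false

namespace Vale.Agent.P367.PT

open MeasureTheory ProbabilityTheory Filter Topology Finset Vale.Agent.P146 Matrix

noncomputable section

theorem vamp_congr {N : ℕ} {G G' : ℕ → ℕ → ℂ} (h : ∀ i < N, ∀ j < N, G i j = G' i j)
    (r : List Lt) : vamp N G r = vamp N G' r := by
  have hB : ∀ a b, Bf N G a b = Bf N G' a b := fun a b =>
    sum_congr rfl fun i hi => sum_congr rfl fun j hj => by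
      rw [h i (mem_range.1 hi) j (mem_range.1 hj)]
  have hA : ∀ r a x, ampl N G r a x = ampl N G' r a x := by
    intro r
    induction r with
    | nil => intro a x; simp only [ampl, hB]
    | cons y r ih => intro a x; cases y <;> simp only [ampl, ih, hB]
  simp only [vamp, hA]

theorem zw_congr {γ : ℕ → ℝ} {A A' : ℕ → M2} {j : ℕ} (h : ∀ i < j, A i = A' i) :
    zw γ A j = zw γ A' j := by
  have : fw γ A j = fw γ A' j := by
    induction j with
    | zero => rfl
    | succ j ih => rw [fw, fw, ih fun i hi => h i (by omega), h j (by omega)]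
  rw [zw, zw, this]

variable {Λ : Type} [MeasurableSpace Λ] {ν : Measure Λ} {γ : ℕ → ℝ}

theorem exists_gram (ν : Measure Λ) (γ : ℕ → ℝ) (V : ℕ → Λ → M2) : ∃ G, IsGram ν γ V G := by
  let Ψ : (ℕ → ℕ → ℂ) → ℕ → ℕ → ℂ := fun G j k =>
    ∫ l, vamp (max j k) G (zw γ (fun i => V i l) k ++ zw γ (fun i => V i l) j) ∂ν
  have hΨ : ∀ G G' j k, (∀ i < max j k, ∀ i' < max j k, G i i' = G' i i') →
      Ψ G j k = Ψ G' j k := fun G G' j k h => by simp only [Ψ, vamp_congr h]
  have key : ∀ n m m', n ≤ m → n ≤ m' → ∀ i < n, ∀ j < n, Ψ^[m] 0 i j = Ψ^[m'] 0 i j := by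
    intro n
    induction n with
    | zero => intro m m' _ _ i hi; omega
    | succ n ih =>
      intro m m' hm hm' i hi j hj
      obtain ⟨a, rfl⟩ : ∃ a, m = a + 1 := ⟨m - 1, by omega⟩
      obtain ⟨a', rfl⟩ : ∃ a, m' = a + 1 := ⟨m' - 1, by omega⟩
      rw [Function.iterate_succ_apply', Function.iterate_succ_apply']
      exact hΨ _ _ _ _ fun x hx y hy => ih a a' (by omega) (by omega) x (by omega) y (by omega)
  refine ⟨fun j k => Ψ^[max j k + 1] 0 j k, fun j k => ?_⟩
  show Ψ^[max j k + 1] 0 j k = Ψ (fun j k => Ψ^[max j k + 1] 0 j k) j k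
  rw [Function.iterate_succ_apply']
  exact hΨ _ _ _ _ fun x hx y hy =>
    key (max x y + 1) _ _ (by omega) le_rfl x (by omega) y (by omega)

theorem _root_.Vale.Agent.P367.IsGram.pt_loc {V V' : ℕ → Λ → M2} {G G' : ℕ → ℕ → ℂ} (h : IsGram ν γ V G)
    (h' : IsGram ν γ V' G') {p : ℕ} (hV : ∀ i < p, V i = V' i) : val3 γ G p = val3 γ G' p := by
  have key : ∀ N ≤ p + 1, ∀ i < N, ∀ j < N, G i j = G' i j := by
    intro N
    induction N with
    | zero => intro _ i hi; omega
    | succ N ih =>
      intro hN i hi j hj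
      rw [h i j, h' i j]
      refine integral_congr_ae (Eventually.of_forall fun l => ?_)
      have hz : ∀ q < N + 1, zw γ (fun i => V i l) q = zw γ (fun i => V' i l) q := fun q hq =>
        zw_congr fun x hx => by rw [hV x (by omega)]
      simp only [hz i hi, hz j hj]
      exact vamp_congr (fun x hx y hy => ih (by omega) x (by omega) y (by omega)) _
  exact sum_congr rfl fun t ht => by
    rw [key (p + 1) le_rfl p (by omega) t (by have := mem_range.1 ht; omega)]

theorem cont_vamp (γ : ℕ → ℝ) (N j k : ℕ) : Continuous fun x : (ℕ → ℕ → ℂ) × (ℕ → M2) =>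
    vamp N x.1 (zw γ x.2 k ++ zw γ x.2 j) := by
  have hB : ∀ h k, Continuous fun x : (ℕ → ℕ → ℂ) × (ℕ → M2) => Bf N x.1 h k := fun h k => by
    unfold Bf
    fun_prop
  let C : ((ℕ → ℕ → ℂ) × (ℕ → M2) → List Lt) → Prop := fun t =>
    ∀ a h, Continuous fun x : (ℕ → ℕ → ℂ) × (ℕ → M2) => ampl N x.1 (t x) a h
  have Cw : ∀ i g t, C t → C fun x => .w i g :: t x := fun i g t ht a h => by
    simp only [ampl]
    exact (Complex.continuous_exp.comp (continuous_const.mul (Complex.continuous_ofReal.comp
      (continuous_const.mul (Complex.continuous_im.comp (hB _ _)))))).mul (ht _ _)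
  have Cm : ∀ (A : (ℕ → ℕ → ℂ) × (ℕ → M2) → M2) t, Continuous A → C t →
      C fun x => .m (A x) :: t x := fun A t hA ht a h => by
    simp only [ampl]
    exact continuous_finsetSum _ fun b _ => (hA.matrix_elem b a).mul (ht _ _)
  have hA : ∀ i, Continuous fun x : (ℕ → ℕ → ℂ) × (ℕ → M2) => x.2 i := fun i =>
    (continuous_apply i).comp continuous_snd
  have key : ∀ j t, C t → C fun x => zw γ x.2 j ++ t x := fun j =>
    zm_ind (X := (ℕ → ℕ → ℂ) × (ℕ → M2)) (fun _ => γ) (fun x => x.2)
      (fun u => ∀ t, C t → C fun x => u x ++ t x) j (fun i _ u hu t ht => by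
        simpa only [List.cons_append, List.append_assoc, List.nil_append] using
          Cw i (γ i) _ (Cm _ _ (hA i) (hu _ (Cm _ _ (hA i).matrix_conjTranspose (Cw i (-γ i) _ ht)))))
      (fun _ => [.m PZ]) fun t ht => Cm _ _ continuous_const ht
  have h0 : C fun _ => [] := fun a h => by
    simp only [ampl]
    exact continuous_const.mul (Complex.continuous_exp.comp ((hB _ _).neg.div_const _))
  have h1 := key k _ (key j _ h0)
  simp only [List.append_nil] at h1
  exact continuous_finsetSum _ fun a _ => continuous_const.mul (h1 a 0)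

theorem meas_vamp {V : ℕ → Λ → M2} (hV : ∀ i a b, Measurable fun l => V i l a b) (γ : ℕ → ℝ)
    (N j k : ℕ) (G : ℕ → ℕ → ℂ) :
    Measurable fun l => vamp N G (zw γ (fun i => V i l) k ++ zw γ (fun i => V i l) j) := by
  have h1 : Continuous fun x : ℕ → Bool → Bool → ℂ => vamp N G (zw γ x k ++ zw γ x j) :=
    (cont_vamp γ N j k).comp (Continuous.prodMk_right G)
  have h2 : Measurable fun l => (fun i a b => V i l a b : ℕ → Bool → Bool → ℂ) :=
    measurable_pi_lambda _ fun i => measurable_pi_lambda _ fun a =>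
      measurable_pi_lambda _ fun b => hV i a b
  exact h1.measurable.comp h2

theorem gram_lim [IsProbabilityMeasure ν] {V : ℕ → ℕ → Λ → M2} {U : ℕ → Λ → M2}
    {G : ℕ → ℕ → ℕ → ℂ} {G0 : ℕ → ℕ → ℂ} (hV : ∀ n j, GOK (V n j))
    (hG : ∀ n, IsGram ν γ (V n) (G n)) (hG0 : IsGram ν γ U G0)
    (hlim : ∀ j, ∀ᵐ l ∂ν, Tendsto (fun n => V n j l) atTop (𝓝 (U j l))) (p : ℕ) :
    Tendsto (fun n => val3 γ (G n) p) atTop (𝓝 (val3 γ G0 p)) := by
  have key : ∀ N, ∀ j < N, ∀ k < N, Tendsto (fun n => G n j k) atTop (𝓝 (G0 j k)) := by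
    intro N
    induction N with
    | zero => intro j hj; omega
    | succ N ih =>
      intro j hj k hk
      let tr : (ℕ → ℕ → ℂ) → ℕ → ℕ → ℂ := fun H x y => if x < N ∧ y < N then H x y else 0
      have htr : ∀ H r, vamp (max j k) H r = vamp (max j k) (tr H) r := fun H =>
        vamp_congr fun x hx y hy => (if_pos ⟨by omega, by omega⟩).symm
      have h1 : Tendsto (fun n => tr (G n)) atTop (𝓝 (tr G0)) :=
        tendsto_pi_nhds.2 fun x => tendsto_pi_nhds.2 fun y => by
          by_cases h : x < N ∧ y < N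
          · simpa only [tr, if_pos h] using ih x h.1 y h.2
          · simpa only [tr, if_neg h] using tendsto_const_nhds
      have h2 : IsCompact (Set.univ.pi fun _ : ℕ => Set.univ.pi fun _ : Bool =>
          Set.univ.pi fun _ : Bool => Metric.closedBall (0 : ℂ) 1) :=
        isCompact_univ_pi fun _ => isCompact_univ_pi fun _ => isCompact_univ_pi fun _ =>
          isCompact_closedBall _ _
      obtain ⟨C, hC⟩ := (h1.isCompact_insert_range.prod h2).exists_bound_of_continuousOn
        (cont_vamp γ (max j k) j k).continuousOn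
      simp only [fun n => hG n j k, hG0 j k]
      simp only [htr (G _), htr G0]
      refine tendsto_integral_of_dominated_convergence (fun _ => C)
        (fun n => (meas_vamp (fun i => (hV n i).1) γ _ j k _).aestronglyMeasurable)
        (integrable_const C) (fun n => Eventually.of_forall fun l => ?_) ?_
      · exact hC (tr (G n), fun i => V n i l) ⟨Set.mem_insert_of_mem _ ⟨n, rfl⟩,
          fun i _ a _ b _ => mem_closedBall_zero_iff.2
            (entry_norm_bound_of_unitary ((hV n i).2 l) a b)⟩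
      · filter_upwards [ae_all_iff.2 hlim] with l hl
        have h3 : Tendsto (fun n => (fun i => V n i l : ℕ → M2)) atTop (𝓝 fun i => U i l) :=
          tendsto_pi_nhds.2 hl
        have h4 := ((cont_vamp γ (max j k) j k).tendsto (tr G0, fun i => U i l)).comp
          (h1.prodMk_nhds h3)
        simpa only [Function.comp_def] using h4
  refine tendsto_finsetSum _ fun t _ => Tendsto.const_mul _ ?_
  exact (Complex.continuous_im.tendsto _).comp
    ((key (max p t + 1) p (by omega) t (by omega)).pow 2)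

theorem _root_.Vale.Agent.P367.IsGram.pt_refine {n : ℕ} (hn : 0 < n) {B : ℕ → Λ → M2} {G : ℕ → ℕ → ℂ}
    (h : IsGram ν (up n γ) B G) :
    IsGram ν γ (fun i l => pq (fun r => B (n * i + r) l) n) fun i j => G (n * i) (n * j) := by
  intro j k
  have hm : max (n * j) (n * k) = n * max j k := (mul_max n j k).symm
  simp only
  rw [h (n * j) (n * k), hm]
  simp only [vamp_up hn]

theorem val3_up {n : ℕ} (hn : 0 < n) (G : ℕ → ℕ → ℂ) (p : ℕ) :
    val3 (up n γ) G (n * p) = val3 γ (fun i j => G (n * i) (n * j)) p := by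
  unfold val3
  rw [sum_up hn p fun i hi => by simp [up, hi]]
  simp only [up_mul hn]

end

end Vale.Agent.P367.PT
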