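import Vale.Agent.P367T.Inv

/-! Insertion of layers with vanishing cost angle. -/

namespace Vale.Agent.P367

open MeasureTheory ProbabilityTheory Filter Topology Finset Vale.Agent.P146

noncomputable section

/-- words with the same action -/
def Eqv (r r' : List Lt) : Prop :=
  ∀ N G q a x, ampl N G (r ++ q) a x = ampl N G (r' ++ q) a x

theorem ampl_prefix {N : ℕ} {G : ℕ → ℕ → ℂ} {t t' : List Lt}
    (h : ∀ a x, ampl N G t a x = ampl N G t' a x) (u : List Lt) (a : Bool) (x : ℕ → ℝ) :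
    ampl N G (u ++ t) a x = ampl N G (u ++ t') a x := by
  induction u generalizing a x with
  | nil => exact h a x
  | cons y r ih =>
    cases y with
    | m A => simp only [List.cons_append, ampl, ih]
    | w j g => simp only [List.cons_append, ampl, ih]

theorem Eqv.refl (r : List Lt) : Eqv r r := fun _ _ _ _ _ => rfl

theorem Eqv.trans {r s t : List Lt} (h : Eqv r s) (h' : Eqv s t) : Eqv r t :=
  fun N G q a x => (h N G q a x).trans (h' N G q a x)

theorem Eqv.append {r r' s s' : List Lt} (h : Eqv r r') (h' : Eqv s s') :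
    Eqv (r ++ s) (r' ++ s') := fun N G q a x => by
  rw [List.append_assoc, List.append_assoc, h]
  exact ampl_prefix (h' N G q) r' a x

theorem eqv_w0 (j : ℕ) : Eqv [.w j 0] [] := fun N G q a x => by
  simp [ampl]

theorem eqv_mm (A B : M2) : Eqv [.m A, .m B] [.m (B * A)] := fun N G q a x => by
  simp only [List.cons_append, List.nil_append, ampl, Matrix.mul_apply, Fintype.sum_bool]
  ring

theorem Eqv.vamp {r r' : List Lt} (h : Eqv r r') (N : ℕ) (G : ℕ → ℕ → ℂ) :
    vamp N G r = vamp N G r' := by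
  have h1 := fun a => h N G [] a 0
  simp only [List.append_nil] at h1
  simp only [P367.vamp, h1]

/-- equivalence of the words and of their inverses -/
def Eqv2 (r r' : List Lt) : Prop :=
  Eqv r r' ∧ Eqv (r.map Lt.inv).reverse (r'.map Lt.inv).reverse

theorem Eqv2.refl (r : List Lt) : Eqv2 r r := ⟨Eqv.refl _, Eqv.refl _⟩

theorem Eqv2.trans {r s t : List Lt} (h : Eqv2 r s) (h' : Eqv2 s t) : Eqv2 r t :=
  ⟨h.1.trans h'.1, h.2.trans h'.2⟩

theorem Eqv2.append {r r' s s' : List Lt} (h : Eqv2 r r') (h' : Eqv2 s s') :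
    Eqv2 (r ++ s) (r' ++ s') := ⟨h.1.append h'.1, by
  simp only [List.map_append, List.reverse_append]
  exact h'.2.append h.2⟩

theorem eqv2_step (A B : M2) (j : ℕ) : Eqv2 [.m A, .w j 0, .m B] [.m (B * A)] := by
  constructor
  · exact ((Eqv.refl [.m A]).append ((eqv_w0 j).append (Eqv.refl [.m B]))).trans (eqv_mm A B)
  · simp only [List.map_cons, List.map_nil, List.reverse_cons, List.reverse_nil, Lt.inv,
      List.nil_append, neg_zero, Matrix.conjTranspose_mul]
    exact (((Eqv.refl [.m _]).append (eqv_w0 j)).append (Eqv.refl [.m _])).trans (eqv_mm _ _)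

/-- the product `g (n - 1) * ⋯ * g 0` -/
def seg (g : ℕ → M2) : ℕ → M2
  | 0 => 1
  | n + 1 => g n * seg g n

/-- cost angles of the refined circuit -/
def rfn (m : ℕ) (x : ℕ → ℝ) (i : ℕ) : ℝ := if i % m = 0 then x (i / m) else 0

/-- change of the index of the modes -/
def Lt.ri (m : ℕ) : Lt → Lt
  | .m A => .m A
  | .w j g => .w (j * m) g

theorem rfn_mul {m : ℕ} (hm : 0 < m) (x : ℕ → ℝ) (j : ℕ) : rfn m x (j * m) = x j := by
  simp [rfn, Nat.mul_div_cancel _ hm]

theorem fw_block {m : ℕ} (γ : ℕ → ℝ) (B : ℕ → ℕ → M2) (j r : ℕ) (hr : r < m) :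
    Eqv2 (fw (rfn m γ) (fun i => B (i / m) (i % m)) (j * m + r + 1))
      (fw (rfn m γ) (fun i => B (i / m) (i % m)) (j * m) ++
        [.w (j * m) (γ j), .m (seg (B j) (r + 1))]) := by
  have hm : 0 < m := by omega
  induction r with
  | zero =>
    simp only [fw, rfn_mul hm, Nat.mul_div_cancel _ hm, Nat.mul_mod_left, seg, mul_one]
    exact Eqv2.refl _
  | succ r ih =>
    have h1 : (j * m + r + 1) % m = r + 1 := by
      rw [add_assoc, Nat.mul_add_mod_of_lt hr]
    have h2 : (j * m + r + 1) / m = j := by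
      rw [add_assoc, add_comm, Nat.add_mul_div_right _ _ hm, Nat.div_eq_of_lt hr, zero_add]
    have h3 : rfn m γ (j * m + r + 1) = 0 := by
      rw [rfn, h1, if_neg (by omega)]
    rw [← add_assoc, fw, h1, h2, h3]
    refine ((ih (by omega)).append (Eqv2.refl _)).trans ?_
    rw [List.append_assoc]
    exact (Eqv2.refl _).append ((Eqv2.refl [.w (j * m) (γ j)]).append (eqv2_step _ _ _))

theorem fw_rfn {m : ℕ} (hm : 0 < m) (γ : ℕ → ℝ) (B : ℕ → ℕ → M2) (j : ℕ) :
    Eqv2 (fw (rfn m γ) (fun i => B (i / m) (i % m)) (j * m))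
      ((fw γ (fun i => seg (B i) m) j).map (Lt.ri m)) := by
  induction j with
  | zero => simpa [fw] using Eqv2.refl _
  | succ j ih =>
    obtain ⟨r, rfl⟩ : ∃ r, m = r + 1 := ⟨m - 1, by omega⟩
    rw [add_mul, one_mul, ← add_assoc]
    refine (fw_block γ B j r (by omega)).trans ?_
    simp only [fw, List.map_append, List.map_cons, List.map_nil, Lt.ri]
    exact ih.append (Eqv2.refl _)

theorem zw_rfn {m : ℕ} (hm : 0 < m) (γ : ℕ → ℝ) (B : ℕ → ℕ → M2) (j : ℕ) :
    Eqv (zw (rfn m γ) (fun i => B (i / m) (i % m)) (j * m))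
      ((zw γ (fun i => seg (B i) m) j).map (Lt.ri m)) := by
  have h2 : Lt.ri m ∘ Lt.inv = Lt.inv ∘ Lt.ri m := funext fun y => by cases y <;> rfl
  simp only [zw, List.map_append, List.map_cons, List.map_reverse, List.map_map, h2, Lt.ri]
  rw [← List.map_map]
  exact (fw_rfn hm γ B j).1.append ((Eqv.refl [.m PZ]).append (fw_rfn hm γ B j).2)

theorem sum_range_mul {E : Type} [AddCommMonoid E] {m : ℕ} (hm : 0 < m) (f : ℕ → E)
    (hf : ∀ i, i % m ≠ 0 → f i = 0) (N : ℕ) :
    ∑ i ∈ range (N * m), f i = ∑ j ∈ range N, f (j * m) := by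
  induction N with
  | zero => simp
  | succ N ih =>
    rw [add_mul, one_mul, sum_range_add, ih, sum_range_succ,
      sum_eq_single_of_mem 0 (mem_range.2 hm) fun r hr h0 => hf _ (by
        rwa [Nat.mul_add_mod_of_lt (mem_range.1 hr)]), add_zero]

theorem Bf_rfn {m : ℕ} (hm : 0 < m) (N : ℕ) (G : ℕ → ℕ → ℂ) (h k : ℕ → ℝ) :
    Bf (N * m) G (rfn m h) (rfn m k) = Bf N (fun i j => G (i * m) (j * m)) h k := by
  unfold Bf
  rw [sum_range_mul hm _ fun i hi => by simp [rfn, hi]]
  refine sum_congr rfl fun i _ => ?_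
  rw [sum_range_mul hm _ fun i hi => by simp [rfn, hi]]
  simp only [rfn_mul hm]

theorem rfn_single {m : ℕ} (hm : 0 < m) (j : ℕ) (c : ℝ) :
    rfn m (Pi.single j c) = Pi.single (j * m) c := by
  funext i
  by_cases h : i % m = 0
  · obtain ⟨i', rfl⟩ : ∃ i', i = i' * m := ⟨i / m, by
      rw [Nat.div_mul_cancel (Nat.dvd_of_mod_eq_zero h)]⟩
    rw [rfn_mul hm]
    simp only [Pi.single_apply, Nat.mul_left_inj hm.ne']
  · rw [rfn, if_neg h, Pi.single_eq_of_ne]
    rintro rfl
    exact h (Nat.mul_mod_left _ _)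

theorem rfn_sub (m : ℕ) (x y : ℕ → ℝ) : rfn m (x - y) = rfn m x - rfn m y := by
  funext i
  simp only [rfn, Pi.sub_apply]
  split_ifs <;> simp

theorem ampl_ri {m : ℕ} (hm : 0 < m) (N : ℕ) (G : ℕ → ℕ → ℂ) (r : List Lt) (a : Bool)
    (x : ℕ → ℝ) : ampl (N * m) G (r.map (Lt.ri m)) a (rfn m x) =
      ampl N (fun i j => G (i * m) (j * m)) r a x := by
  induction r generalizing a x with
  | nil => simp only [List.map_nil, ampl, Bf_rfn hm]
  | cons y r ih =>
    cases y with
    | m A => simp only [List.map_cons, Lt.ri, ampl, ih]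
    | w j g =>
      simp only [List.map_cons, Lt.ri, ampl]
      rw [← rfn_single hm, ← rfn_single hm, ← rfn_sub, ih, Bf_rfn hm]

theorem gint_rfn {m : ℕ} (hm : 0 < m) (γ : ℕ → ℝ) (j k : ℕ) (G : ℕ → ℕ → ℂ) (B : ℕ → ℕ → M2) :
    gint (rfn m γ) (j * m) (k * m) G (fun i => B (i / m) (i % m)) =
      gint γ j k (fun i j => G (i * m) (j * m)) fun i => seg (B i) m := by
  have h0 : rfn m 0 = 0 := funext fun i => by simp [rfn]
  have h1 : max (j * m) (k * m) = max j k * m := (max_mul_of_nonneg _ _ hm.le).symm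
  unfold gint
  rw [((zw_rfn hm γ B k).append (zw_rfn hm γ B j)).vamp, ← List.map_append, h1]
  refine sum_congr rfl fun a _ => ?_
  rw [← ampl_ri hm, h0]

variable {Λ : Type} [MeasurableSpace Λ] {ν : Measure Λ} {γ : ℕ → ℝ}

/-- the Gram matrix of the refined circuit restricts to the one of the composite gates -/
theorem IsGram.of_rfn {m : ℕ} (hm : 0 < m) {B : ℕ → ℕ → Λ → M2} {G : ℕ → ℕ → ℂ}
    (h : IsGram ν (rfn m γ) (fun i l => B (i / m) (i % m) l) G) :
    IsGram ν γ (fun i l => seg (fun r => B i r l) m) fun i j => G (i * m) (j * m) := by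
  refine isGram_iff.2 fun j k => (isGram_iff.1 h (j * m) (k * m)).trans ?_
  congr 1
  funext l
  exact gint_rfn hm γ j k G fun i r => B i r l

theorem val3_rfn {m : ℕ} (hm : 0 < m) (γ : ℕ → ℝ) (G : ℕ → ℕ → ℂ) (p : ℕ) :
    val3 (rfn m γ) G (p * m) = val3 γ (fun i j => G (i * m) (j * m)) p := by
  unfold val3
  rw [sum_range_mul hm _ fun i hi => by simp [rfn, hi]]
  simp only [rfn_mul hm]

theorem seg_getD {T : Type} (f : T → M2) {d : T} (hd : f d = 1) (R : List T) (m : ℕ) :
    seg (fun r => f (R.getD r d)) m = ((R.take m).map f).reverse.prod := by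
  induction m with
  | zero => simp [seg]
  | succ m ih =>
    rw [seg, ih, List.take_add_one, List.getD_eq_getElem?_getD]
    cases R[m]? <;> simp [hd]

theorem ins_RX_zero : RX 0 = 1 := by
  ext a b
  cases a <;> cases b <;> simp [RX]

theorem ins_RZ_zero : RZ 0 = 1 := by
  ext a b
  cases a <;> cases b <;> simp [RZ]

/-- the product of the gates `RX β * RZ (τ a)` along a list of pairs `(β, τ)` -/
def prodL (L : List (ℝ × ℝ)) (a : ℝ) : M2 := (L.map fun x => RX x.1 * RZ (x.2 * a)).prod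

/-- circuits whose gates are finite products of elementary gates -/
theorem val3_mem_Q2 (γ : ℕ → ℝ) (L : ℕ → List (ℝ × ℝ)) {G : ℕ → ℕ → ℂ}
    (hG : IsGram (gaussianReal 0 1) γ (fun j a => prodL (L j) a) G) (p : ℕ) :
    val3 γ G p ∈ Q2 := by
  let m := ∑ j ∈ range p, (L j).length + 1
  have hm : 0 < m := Nat.succ_pos _
  let y : ℕ → ℕ → ℝ × ℝ := fun j r => (L j).reverse.getD r (0, 0)
  obtain ⟨G', hG'⟩ := exists_isGram (gaussianReal 0 1) (rfn m γ)
    fun i a => RX (y (i / m) (i % m)).1 * RZ ((y (i / m) (i % m)).2 * a)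
  refine ⟨rfn m γ, fun i => (y (i / m) (i % m)).2, fun i => (y (i / m) (i % m)).1, G', p * m,
    hG', ?_⟩
  rw [val3_rfn hm]
  refine hG.val3_congr (IsGram.of_rfn hm
    (B := fun j r a => RX (y j r).1 * RZ ((y j r).2 * a)) hG') (fun _ _ => rfl) fun i hi => ?_
  funext a
  have h1 : (L i).length ≤ m := (single_le_sum (f := fun j => (L j).length)
    (fun _ _ => Nat.zero_le _) (mem_range.2 hi)).trans (Nat.le_succ _)
  rw [seg_getD (fun x : ℝ × ℝ => RX x.1 * RZ (x.2 * a)) (by simp [ins_RX_zero, ins_RZ_zero]),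
    List.take_of_length_le (by simpa using h1), List.map_reverse, List.reverse_reverse, prodL]

end

end Vale.Agent.P367
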