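import Vale.Agent.P367T.Cont

/-! Invariance of the Gram recursion under phases and under the global spin flip. -/

namespace Vale.Agent.P367

open MeasureTheory ProbabilityTheory Filter Topology Finset Vale.Agent.P146
open scoped ComplexConjugate

noncomputable section

/-- the second word is the first one with scalar multiples of its matrices -/
inductive Sc : List Lt → List Lt → ℂ → Prop
  | nil : Sc [] [] 1
  | m (c : ℂ) (A : M2) {r r' : List Lt} {z : ℂ} : Sc r r' z →
      Sc (.m A :: r) (.m (c • A) :: r') (c * z)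
  | w (j : ℕ) (g : ℝ) {r r' : List Lt} {z : ℂ} : Sc r r' z → Sc (.w j g :: r) (.w j g :: r') z

theorem Sc.cast {r r' : List Lt} {z z' : ℂ} (h : Sc r r' z) (e : z = z') : Sc r r' z' := e ▸ h

theorem Sc.refl (r : List Lt) : Sc r r 1 := by
  induction r with
  | nil => exact Sc.nil
  | cons y r ih =>
    cases y with
    | m A => simpa using Sc.m 1 A ih
    | w j g => exact Sc.w j g ih

theorem Sc.append {r r' q q' : List Lt} {z z' : ℂ} (h : Sc r r' z) (h' : Sc q q' z') :
    Sc (r ++ q) (r' ++ q') (z * z') := by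
  induction h with
  | nil => simpa using h'
  | m c A _ ih => exact (Sc.m c A ih).cast (mul_assoc _ _ _).symm
  | w j g _ ih => exact Sc.w j g ih

theorem Sc.inv {r r' : List Lt} {z : ℂ} (h : Sc r r' z) :
    Sc (r.map Lt.inv).reverse (r'.map Lt.inv).reverse (conj z) := by
  induction h with
  | nil => simpa using Sc.nil
  | m c A _ ih =>
    simp only [List.map_cons, List.reverse_cons, Lt.inv, Matrix.conjTranspose_smul]
    exact (ih.append (Sc.m _ _ Sc.nil)).cast (by simp [mul_comm])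
  | w j g _ ih =>
    simp only [List.map_cons, List.reverse_cons, Lt.inv]
    exact (ih.append (Sc.w _ _ Sc.nil)).cast (mul_one _)

theorem Sc.ampl {r r' : List Lt} {z : ℂ} (h : Sc r r' z) (N : ℕ) (G : ℕ → ℕ → ℂ) (a : Bool)
    (x : ℕ → ℝ) : ampl N G r' a x = z * ampl N G r a x := by
  induction h generalizing a x with
  | nil => simp
  | m c A _ ih =>
    simp only [P367.ampl, ih, Matrix.smul_apply, smul_eq_mul, Finset.mul_sum]
    exact Finset.sum_congr rfl fun b _ => by ring
  | w j g _ ih =>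
    simp only [P367.ampl, ih]
    ring

theorem Sc.vamp {r r' : List Lt} {z : ℂ} (h : Sc r r' z) (N : ℕ) (G : ℕ → ℕ → ℂ) :
    vamp N G r' = z * vamp N G r := by
  simp only [P367.vamp, h.ampl, Finset.mul_sum]
  exact Finset.sum_congr rfl fun b _ => by ring

theorem sc_fw (γ : ℕ → ℝ) (A : ℕ → M2) (c : ℕ → ℂ) (j : ℕ) :
    Sc (fw γ A j) (fw γ (fun i => c i • A i) j) (∏ i ∈ range j, c i) := by
  induction j with
  | zero => exact Sc.nil
  | succ j ih =>
    exact (ih.append (Sc.w _ _ (Sc.m (c j) _ Sc.nil))).cast (by rw [prod_range_succ, mul_one])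

theorem sc_zw (γ : ℕ → ℝ) (A : ℕ → M2) {c : ℕ → ℂ} (hc : ∀ i, ‖c i‖ = 1) (j : ℕ) :
    Sc (zw γ A j) (zw γ (fun i => c i • A i) j) 1 := by
  have h := (sc_fw γ A c j).append ((Sc.refl [.m PZ]).append (sc_fw γ A c j).inv)
  refine Sc.cast h ?_
  rw [one_mul, Complex.mul_conj, Complex.normSq_eq_norm_sq, norm_prod]
  simp [hc]

/-- phases of the gates do not matter -/
theorem gint_phase (γ : ℕ → ℝ) (j k : ℕ) (G : ℕ → ℕ → ℂ) (A : ℕ → M2) {c : ℕ → ℂ}
    (hc : ∀ i, ‖c i‖ = 1) : gint γ j k G (fun i => c i • A i) = gint γ j k G A := by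
  unfold gint
  rw [((sc_zw γ A hc k).append (sc_zw γ A hc j)).vamp, one_mul, one_mul]

/-- conjugation by the spin flip -/
def Lt.gx : Lt → Lt
  | .m A => .m (PX * A * PX)
  | .w j g => .w j g

theorem PX_conj_apply (A : M2) (a b : Bool) : (PX * A * PX) a b = A (!a) (!b) := by
  cases a <;> cases b <;> simp [PX, Matrix.mul_apply]

theorem spin_not (a : Bool) : spin (!a) = -spin a := by
  cases a <;> simp [spin]

theorem Bf_neg_right (N : ℕ) (G : ℕ → ℕ → ℂ) (h k : ℕ → ℝ) : Bf N G h (-k) = -Bf N G h k := by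
  simp [Bf]

theorem Bf_neg_left (N : ℕ) (G : ℕ → ℕ → ℂ) (h k : ℕ → ℝ) : Bf N G (-h) k = -Bf N G h k := by
  simp [Bf]

theorem ampl_gx (N : ℕ) (G : ℕ → ℕ → ℂ) (r : List Lt) (a : Bool) (x : ℕ → ℝ) :
    ampl N G (r.map Lt.gx) (!a) (-x) = ampl N G r a x := by
  induction r generalizing a x with
  | nil => simp only [List.map_nil, ampl, Bf_neg_left, Bf_neg_right, neg_neg]
  | cons y r ih =>
    cases y with
    | m A =>
      simp only [List.map_cons, Lt.gx, ampl, PX_conj_apply, Bool.not_not, Fintype.sum_bool]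
      rw [← ih true x, ← ih false x, add_comm]
      rfl
    | w j g =>
      simp only [List.map_cons, Lt.gx, ampl, spin_not, Bf_neg_right, Complex.neg_im]
      rw [← ih a, show -x - Pi.single j (-spin a * g) = -(x - Pi.single j (spin a * g)) by
        rw [neg_mul, Pi.single_neg]; abel]
      congr 4
      ring

theorem vamp_gx (N : ℕ) (G : ℕ → ℕ → ℂ) (r : List Lt) : vamp N G (r.map Lt.gx) = vamp N G r := by
  have h := fun a => ampl_gx N G r a 0
  simp only [neg_zero] at h
  simp only [vamp, Fintype.sum_bool]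
  rw [← h true, ← h false, add_comm]
  rfl

theorem fw_gx (γ : ℕ → ℝ) (A : ℕ → M2) (j : ℕ) :
    (fw γ A j).map Lt.gx = fw γ (fun i => PX * A i * PX) j := by
  induction j with
  | zero => rfl
  | succ j ih => simp only [fw, List.map_append, ih, List.map_cons, List.map_nil, Lt.gx]

theorem gx_inv (y : Lt) : y.inv.gx = y.gx.inv := by
  cases y with
  | m A =>
    simp only [Lt.inv, Lt.gx]
    congr 1
    ext a b
    rw [PX_conj_apply, Matrix.conjTranspose_apply, Matrix.conjTranspose_apply, PX_conj_apply]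
  | w j g => rfl

theorem sc_zw_gx (γ : ℕ → ℝ) (A : ℕ → M2) (j : ℕ) :
    Sc (zw γ (fun i => PX * A i * PX) j) ((zw γ A j).map Lt.gx) (-1) := by
  have h1 : PX * PZ * PX = (-1 : ℂ) • PZ := by
    ext a b
    rw [PX_conj_apply]
    cases a <;> cases b <;> simp [PZ, spin]
  have h2 : Lt.gx ∘ Lt.inv = Lt.inv ∘ Lt.gx := funext gx_inv
  simp only [zw, List.map_append, List.map_cons, List.map_reverse, List.map_map, h2, Lt.gx, h1]
  rw [← List.map_map, fw_gx]
  exact ((Sc.refl _).append (Sc.m (-1) PZ (Sc.refl _))).cast (by ring)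

/-- the global spin flip of all gates does not matter -/
theorem gint_gauge (γ : ℕ → ℝ) (j k : ℕ) (G : ℕ → ℕ → ℂ) (A : ℕ → M2) :
    gint γ j k G (fun i => PX * A i * PX) = gint γ j k G A := by
  unfold gint
  rw [← vamp_gx _ G (zw γ A k ++ zw γ A j), List.map_append,
    ((sc_zw_gx γ A k).append (sc_zw_gx γ A j)).vamp]
  ring

variable {Λ : Type} [MeasurableSpace Λ] {ν : Measure Λ} {γ : ℕ → ℝ} {V W : ℕ → Λ → M2}
  {G : ℕ → ℕ → ℂ}

/-- label dependent phases and a label dependent global flip -/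
theorem IsGram.of_phase_gauge (h : IsGram ν γ V G)
    (hW : ∀ᵐ l ∂ν, ∃ c : ℕ → ℂ, (∀ i, ‖c i‖ = 1) ∧
      ((∀ i, W i l = c i • V i l) ∨ ∀ i, W i l = c i • (PX * V i l * PX))) : IsGram ν γ W G := by
  refine isGram_iff.2 fun j k => (isGram_iff.1 h j k).trans (integral_congr_ae ?_)
  refine hW.mono fun l hl => ?_
  obtain ⟨c, hc, h1 | h1⟩ := hl
  · simp only [h1]
    exact (gint_phase γ j k G _ hc).symm
  · simp only [h1]
    exact ((gint_phase γ j k G _ hc).trans (gint_gauge γ j k G _)).symm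

/-- the entries up to `p` only depend on the layers below `p` -/
theorem IsGram.congr {γ' : ℕ → ℝ} {G' : ℕ → ℕ → ℂ} (h : IsGram ν γ V G) (h' : IsGram ν γ' W G')
    {p : ℕ} (hγ : ∀ i < p, γ i = γ' i) (hV : ∀ i < p, V i = W i) :
    ∀ j ≤ p, ∀ k ≤ p, G j k = G' j k := by
  have key : ∀ N ≤ p + 1, ∀ j < N, ∀ k < N, G j k = G' j k := by
    intro N
    induction N with
    | zero => intro _ j hj; omega
    | succ N ih =>
      intro hN j hj k hk
      rw [isGram_iff.1 h j k, isGram_iff.1 h' j k]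
      congr 1
      funext l
      rw [gint_congr (G' := G') fun i hi i' hi' => ih (by omega) i (by omega) i' (by omega)]
      exact gint_congr' _ (fun i hi => hγ i (by omega)) fun i hi => congrFun (hV i (by omega)) l
  intro j hj k hk
  exact key (p + 1) le_rfl j (by omega) k (by omega)

theorem IsGram.val3_congr {γ' : ℕ → ℝ} {G' : ℕ → ℕ → ℂ} (h : IsGram ν γ V G)
    (h' : IsGram ν γ' W G') {p : ℕ} (hγ : ∀ i < p, γ i = γ' i) (hV : ∀ i < p, V i = W i) :
    val3 γ G p = val3 γ' G' p :=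
  Finset.sum_congr rfl fun t ht => by
    rw [h.congr h' hγ hV p le_rfl t (Finset.mem_range.1 ht).le, hγ t (Finset.mem_range.1 ht)]

end

end Vale.Agent.P367
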