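import Vale.Agent.P367T.Defs

/-! Part T: odd functions and even labels. -/

set_option linter.all false

namespace Vale.Agent.P367.PT

open MeasureTheory ProbabilityTheory Filter Topology Finset Vale.Agent.P146

noncomputable section

theorem tOdd_trig {T : Set (ℝ → ℝ)} (h0 : ∀ c σ θ : ℝ, (fun a => c * Real.cos (σ * a + θ)) ∈ T)
    (hadd : ∀ f ∈ T, ∀ g ∈ T, (fun a => f a + g a) ∈ T) (τ : ℝ) (k : ℕ) :
    ∀ c σ θ : ℝ, (fun a => c * Real.sin (τ * a) ^ k * Real.cos (σ * a + θ)) ∈ T := by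
  induction k with
  | zero => simpa using h0
  | succ k ih =>
    intro c σ θ
    have h := hadd _ (ih (c / 2) (τ + σ) (θ - Real.pi / 2)) _
      (ih (c / 2) (τ - σ) (-θ - Real.pi / 2))
    refine (congrArg (· ∈ T) (funext fun a => ?_)).mp h
    rw [show (τ + σ) * a + (θ - Real.pi / 2) = τ * a + (σ * a + θ) - Real.pi / 2 by ring,
      show (τ - σ) * a + (-θ - Real.pi / 2) = τ * a - (σ * a + θ) - Real.pi / 2 by ring,
      Real.cos_sub_pi_div_two, Real.cos_sub_pi_div_two, Real.sin_add (τ * a), Real.sin_sub]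
    ring

theorem tOdd_poly {T : Set (ℝ → ℝ)} (h0 : ∀ c σ θ : ℝ, (fun a => c * Real.cos (σ * a + θ)) ∈ T)
    (hadd : ∀ f ∈ T, ∀ g ∈ T, (fun a => f a + g a) ∈ T) (τ : ℝ) (p : Polynomial ℝ) :
    (fun a => p.eval (Real.sin (τ * a))) ∈ T := by
  induction p using Polynomial.induction_on' with
  | add p q hp hq => simpa using hadd _ hp _ hq
  | monomial n c => simpa using tOdd_trig h0 hadd τ n c 0 0

theorem tOdd_cont (S : Set (ℝ → ℝ)) (h0 : ∀ t τ : ℝ, (fun a => t * Real.sin (τ * a)) ∈ S)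
    (hadd : ∀ f ∈ S, ∀ g ∈ S, (fun a => f a + g a) ∈ S)
    (hlim : ∀ (f : ℕ → ℝ → ℝ) (g : ℝ → ℝ), (∀ n, f n ∈ S) →
      (∀ᵐ a ∂gaussianReal 0 1, Tendsto (fun n => f n a) atTop (𝓝 (g a))) → g ∈ S)
    {g : ℝ → ℝ} (hg : Continuous g) (hodd : ∀ a, g (-a) = -g a) : g ∈ S := by
  have hp : ∀ (τ : ℝ) (p : Polynomial ℝ), (fun a =>
      (p.eval (Real.sin (τ * a)) - p.eval (Real.sin (τ * -a))) / 2) ∈ S := fun τ p => by
    refine tOdd_poly (T := {f | (fun a => (f a - f (-a)) / 2) ∈ S}) (fun c σ θ => ?_)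
      (fun f hf g hg => ?_) τ p
    · refine (congrArg (· ∈ S) (funext fun a => ?_)).mp (h0 (-(c * Real.sin θ)) σ)
      simp only [Real.cos_add, mul_neg, Real.cos_neg, Real.sin_neg]
      ring
    · refine (congrArg (· ∈ S) (funext fun a => ?_)).mp (hadd _ hf _ hg)
      ring
  have hq : ∀ n : ℕ, ∃ p : Polynomial ℝ, ∀ a : ℝ, |a| ≤ n + 1 →
      |p.eval (Real.sin (1 / ((n : ℝ) + 1) * a)) - g a| < 1 / ((n : ℝ) + 1) := fun n => by
    have hM : (0 : ℝ) < n + 1 := by positivity
    obtain ⟨p, hp⟩ := exists_polynomial_near_of_continuousOn (-1) 1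
      (fun u => g ((n + 1) * Real.arcsin u)) (by fun_prop) (1 / ((n : ℝ) + 1)) (by positivity)
    refine ⟨p, fun a ha => ?_⟩
    have h1 := hp _ (Real.sin_mem_Icc (1 / ((n : ℝ) + 1) * a))
    have h2 : |1 / ((n : ℝ) + 1) * a| ≤ 1 := by
      rw [abs_mul, abs_of_pos (by positivity), one_div, inv_mul_le_iff₀ hM, mul_one]
      exact ha
    have h3 := abs_le.1 h2
    have h4 := Real.pi_gt_three
    simp only [Real.arcsin_sin (by linarith : -(Real.pi / 2) ≤ 1 / ((n : ℝ) + 1) * a)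
      (by linarith)] at h1
    rwa [← mul_assoc, mul_one_div_cancel hM.ne', one_mul] at h1
  choose p hp' using hq
  refine hlim _ g (fun n => hp (1 / ((n : ℝ) + 1)) (p n)) (ae_of_all _ fun a => ?_)
  rw [tendsto_iff_norm_sub_tendsto_zero]
  refine squeeze_zero' (Eventually.of_forall fun n => norm_nonneg _) ?_
    tendsto_one_div_add_atTop_nhds_zero_nat
  obtain ⟨N, hN⟩ := exists_nat_ge |a|
  filter_upwards [eventually_ge_atTop N] with n hn
  have h1 : |a| ≤ (n : ℝ) + 1 := by
    have : (N : ℝ) ≤ n := by exact_mod_cast hn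
    linarith
  have h2 := abs_lt.1 (hp' n a h1)
  have h3 := abs_lt.1 (hp' n (-a) (by rwa [abs_neg]))
  rw [hodd] at h3
  rw [Real.norm_eq_abs, abs_le]
  constructor <;> linarith [h2.1, h2.2, h3.1, h3.2]

theorem tOdd_int (S : Set (ℝ → ℝ)) (h0 : ∀ t τ : ℝ, (fun a => t * Real.sin (τ * a)) ∈ S)
    (hadd : ∀ f ∈ S, ∀ g ∈ S, (fun a => f a + g a) ∈ S)
    (hlim : ∀ (f : ℕ → ℝ → ℝ) (g : ℝ → ℝ), (∀ n, f n ∈ S) →
      (∀ᵐ a ∂gaussianReal 0 1, Tendsto (fun n => f n a) atTop (𝓝 (g a))) → g ∈ S)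
    {g : ℝ → ℝ} (hg : MemLp g 1 (gaussianReal 0 1)) (hodd : ∀ a, g (-a) = -g a) : g ∈ S := by
  have h1 := fun n : ℕ => hg.exists_boundedContinuous_eLpNorm_sub_le ENNReal.one_ne_top
    (ε := (n : ENNReal)⁻¹) (ENNReal.inv_ne_zero.2 (ENNReal.natCast_ne_top n))
  choose f hf hf' using h1
  have h2 : TendstoInMeasure (gaussianReal 0 1) (fun n => (f n : ℝ → ℝ)) atTop g := by
    refine tendstoInMeasure_of_tendsto_eLpNorm one_ne_zero (fun n => (hf' n).1) hg.1 ?_
    refine tendsto_of_tendsto_of_tendsto_of_le_of_le tendsto_const_nhds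
      ENNReal.tendsto_inv_nat_nhds_zero (fun n => zero_le) fun n => ?_
    rw [eLpNorm_sub_comm]
    exact hf n
  obtain ⟨ns, -, h3⟩ := h2.exists_seq_tendsto_ae
  have h4 : (gaussianReal 0 1).map (fun a : ℝ => -a) = gaussianReal 0 1 := by
    simpa using gaussianReal_map_neg (μ := 0) (v := 1)
  have h5 := (MeasurePreserving.mk measurable_neg h4).quasiMeasurePreserving.ae h3
  refine hlim (fun n a => (f (ns n) a - f (ns n) (-a)) / 2) g
    (fun n => tOdd_cont S h0 hadd hlim (by fun_prop) fun a => ?_) ?_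
  · rw [neg_neg]
    ring
  · filter_upwards [h3, h5] with a a1 a2
    have := (a1.sub a2).div_const 2
    rwa [hodd, sub_neg_eq_add, add_self_div_two] at this

theorem tOdd_cdf (μ : Measure ℝ) [IsProbabilityMeasure μ] [NullSingletonClass μ] {t : ℝ}
    (h1 : t ≤ 1) : μ {x | cdf μ x ≤ t} = ENNReal.ofReal t := by
  have hm := monotone_cdf μ
  rcases Set.eq_empty_or_nonempty {x | cdf μ x ≤ t} with h | h
  · rw [h, measure_empty, eq_comm, ENNReal.ofReal_eq_zero]
    exact ge_of_tendsto' (tendsto_cdf_atBot μ) fun x =>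
      (not_le.1 fun hx => Set.eq_empty_iff_forall_notMem.1 h x hx).le
  by_cases hb : BddAbove {x | cdf μ x ≤ t}
  · have hl := isLUB_csSup h hb
    generalize sSup {x | cdf μ x ≤ t} = a at hl
    have a1 : Set.Iio a ⊆ {x | cdf μ x ≤ t} := fun x hx => by
      obtain ⟨y, hy, hxy, -⟩ := hl.exists_between hx
      exact (hm hxy.le).trans hy
    have a2 : t ≤ cdf μ a := ge_of_tendsto
      (((cdf μ).right_continuous a).mono Set.Ioi_subset_Ici_self).tendsto
      (eventually_nhdsWithin_of_forall fun x hx => (not_le.1 fun hx' => (hl.1 hx').not_gt hx).le)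
    have a3 : Function.leftLim (cdf μ) a ≤ t :=
      le_of_tendsto (hm.tendsto_leftLim a) (eventually_nhdsWithin_of_forall a1)
    have a4 := (cdf μ).measure_singleton a
    rw [measure_cdf, measure_singleton, eq_comm, ENNReal.ofReal_eq_zero] at a4
    rw [← le_antisymm (by linarith) a2, ofReal_cdf]
    rw [le_antisymm (by linarith : cdf μ a ≤ t) a2]
    exact le_antisymm (measure_mono hl.1)
      ((measure_congr Iio_ae_eq_Iic).symm.trans_le (measure_mono a1))
  · have a1 : ∀ x, cdf μ x ≤ t := fun x => by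
      obtain ⟨y, hy, hxy⟩ := not_bddAbove_iff.1 hb x
      exact (hm hxy.le).trans hy
    rw [Set.eq_univ_of_forall (s := {x | cdf μ x ≤ t}) a1, measure_univ,
      le_antisymm h1 (le_of_tendsto' (tendsto_cdf_atTop μ) a1), ENNReal.ofReal_one]

/-- (1) Let `T` be the set of the `f` whose odd part `(f a - f (-a)) / 2` is in `S`. By induction on
`k`, for all `c σ θ`: `c * sin (τ * a) ^ k * cos (σ * a + θ)` is in `T` (product formula
`2 * sin x * cos y = cos (x + y - π / 2) + cos (x - y - π / 2)`), so `p.eval (sin (τ * a))` is in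
`T` for polynomials `p` (`Polynomial.induction_on'`).
(2) `g` continuous and odd: `exists_polynomial_near_of_continuousOn (-1) 1` for
`fun u => g (M * arcsin u)`, `τ = 1 / M`, `M = n + 1`, error `1 / (n + 1)` on `|a| ≤ M`.
(3) `g` bounded: `Integrable.exists_boundedContinuous_integral_sub_le`, convergence in measure,
`TendstoInMeasure.exists_seq_tendsto_ae`, symmetry of the Gaussian measure, odd parts.
(4) clamp `max (-n) (min n (g a))`. -/
theorem odd_dense (S : Set (ℝ → ℝ)) (h0 : ∀ t τ : ℝ, (fun a => t * Real.sin (τ * a)) ∈ S)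
    (hadd : ∀ f ∈ S, ∀ g ∈ S, (fun a => f a + g a) ∈ S)
    (hlim : ∀ (f : ℕ → ℝ → ℝ) (g : ℝ → ℝ), (∀ n, f n ∈ S) →
      (∀ᵐ a ∂gaussianReal 0 1, Tendsto (fun n => f n a) atTop (𝓝 (g a))) → g ∈ S)
    {g : ℝ → ℝ} (hg : Measurable g) (hodd : ∀ a, g (-a) = -g a) : g ∈ S := by
  refine hlim (fun n a => max (-(n : ℝ)) (min n (g a))) g (fun n => tOdd_int S h0 hadd hlim
    (MemLp.of_bound (Measurable.aestronglyMeasurable (by fun_prop)) n (ae_of_all _ fun a => ?_))
    fun a => ?_) (ae_of_all _ fun a => ?_)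
  · have : (0 : ℝ) ≤ n := Nat.cast_nonneg n
    rw [Real.norm_eq_abs, abs_le]
    exact ⟨le_max_left _ _, max_le (by linarith) (min_le_left _ _)⟩
  · have : (0 : ℝ) ≤ n := Nat.cast_nonneg n
    simp only [hodd, max_def, min_def]
    split_ifs <;> linarith
  · obtain ⟨N, hN⟩ := exists_nat_ge |g a|
    refine tendsto_const_nhds.congr' ?_
    filter_upwards [eventually_ge_atTop N] with n hn
    have h1 : (N : ℝ) ≤ n := by exact_mod_cast hn
    have h2 := abs_le.1 (hN.trans h1)
    rw [min_eq_right h2.2, max_eq_right h2.1]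

/-- `Measure.exists_measurable_map_eq` and the distribution function of the law of `|a|`, which has
no atoms; copy `dsb_cdf` and `exists_gauss_map` of `Vale/Agent/P166/DSB.lean` (do not import). -/
theorem exists_even_map {D : Type} [MeasurableSpace D] [StandardBorelSpace D] [Nonempty D]
    (μ : Measure D) [IsProbabilityMeasure μ] :
    ∃ Φ : ℝ → D, Measurable Φ ∧ (gaussianReal 0 1).map (fun a => Φ |a|) = μ := by
  obtain ⟨f, hf, hf'⟩ := μ.exists_measurable_map_eq
  have := nullSingletonClass_gaussianReal (μ := 0) (one_ne_zero (α := NNReal))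
  have ha : Measurable fun a : ℝ => |a| := continuous_abs.measurable
  obtain ⟨ν, hν⟩ : ∃ ν, ν = (gaussianReal 0 1).map fun a : ℝ => |a| := ⟨_, rfl⟩
  have i1 : IsProbabilityMeasure ν := hν ▸ Measure.isProbabilityMeasure_map ha.aemeasurable
  have i2 : NullSingletonClass ν := ⟨fun x => by
    rw [hν, Measure.map_apply ha (measurableSet_singleton x)]
    refine measure_mono_null (t := {x, -x}) (fun a h => ?_) ((Set.toFinite _).measure_zero _)
    have h1 : |a| = x := h
    rcases abs_choice a with e | e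
    · exact Or.inl (by linarith)
    · exact Or.inr (show a = -x by linarith)⟩
  have hm : Measurable fun x => (⟨cdf ν x, cdf_nonneg _ x, cdf_le_one _ x⟩ : unitInterval) :=
    (monotone_cdf _).measurable.subtype_mk
  have h1 : MeasurePreserving _ ν μ :=
    (MeasurePreserving.mk hf hf').comp ⟨hm, Measure.ext_of_Iic _ _ fun t => by
      rw [Measure.map_apply hm measurableSet_Iic, unitInterval.volume_Iic]
      exact tOdd_cdf _ t.2.2⟩
  exact ⟨_, h1.measurable, (h1.comp ⟨ha, hν.symm⟩).map_eq⟩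

end

end Vale.Agent.P367.PT
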