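import Vale.Agent.P367T.Eul

/-! Part T: the product formula and the diagonal argument. -/

set_option linter.all false

namespace Vale.Agent.P367.PT

open MeasureTheory ProbabilityTheory Filter Topology Finset Vale.Agent.P146

noncomputable section

section

open scoped Matrix.Norms.L2Operator

theorem tTrot_pow {K E : M2} (hK : Uni K) (hE : Uni E) (n : ℕ) :
    ‖K ^ n - E ^ n‖ ≤ n * ‖K - E‖ := by
  induction n with
  | zero => simp
  | succ n ih =>
    have e : K ^ (n + 1) - E ^ (n + 1) = (K ^ n - E ^ n) * K + E ^ n * (K - E) := by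
      rw [pow_succ, pow_succ]
      noncomm_ring
    have h1 := norm_mul_le (K ^ n - E ^ n) K
    have h2 := norm_mul_le (E ^ n) (K - E)
    rw [CStarRing.norm_of_mem_unitary hK] at h1
    rw [CStarRing.norm_of_mem_unitary (pow_mem hE n)] at h2
    rw [e]
    push_cast
    linarith [norm_add_le ((K ^ n - E ^ n) * K) (E ^ n * (K - E))]

theorem tTrot_cs (P : M2) {f : ℝ → ℝ} {c : ℝ} (hf : HasDerivAt f c 0) (h0 : f 0 = 0) :
    HasDerivAt (fun s => Real.cos (f s) • (1 : M2) + Real.sin (f s) • P) (c • P) 0 := by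
  simpa [h0] using (hf.cos.smul_const (1 : M2)).fun_add (hf.sin.smul_const P)

theorem tTrot_RX (s : ℝ) : RX s = Real.cos s • (1 : M2) + Real.sin s • (-Complex.I • PX) := by
  ext a b
  cases a <;> cases b <;> simp [RX, PX, mul_comm]

theorem tTrot_RY (s : ℝ) : RY s = Real.cos s • (1 : M2) + Real.sin s • RY (Real.pi / 2) := by
  ext a b
  cases a <;> cases b <;> simp [RY, mul_comm]

theorem tTrot_id (g : ℝ) : RZ g * (-Complex.I • PX) * RZ (-g) - RZ (-g) * (-Complex.I • PX) * RZ g =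
    (2 * Real.sin (2 * g)) • RY (Real.pi / 2) := by
  have e1 : Complex.exp (Complex.I * g) * Complex.exp (Complex.I * g) =
      Complex.exp (2 * g * Complex.I) := by rw [← Complex.exp_add]; ring_nf
  have e2 : Complex.exp (-(Complex.I * g)) * Complex.exp (-(Complex.I * g)) =
      Complex.exp (-(2 * g) * Complex.I) := by rw [← Complex.exp_add]; ring_nf
  have e3 := Complex.two_sin (2 * g)
  ext a b
  cases a <;> cases b <;>
    simp [RZ, RY, PX, spin, Matrix.diagonal_mul, Matrix.mul_diagonal]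
  · linear_combination -Complex.I * e1 + Complex.I * e2 - e3
  · linear_combination Complex.I * e1 - Complex.I * e2 + e3

theorem tTrot_main {K E : ℝ → M2} (hK : ∀ s, Uni (K s)) (hE : ∀ s, Uni (E s))
    (hd : HasDerivAt (fun s => K s - E s) 0 0) (h0 : K 0 = E 0) {t : ℝ} {L : M2}
    (hL : ∀ n : ℕ, 0 < n → E (t / n) ^ n = L) :
    Tendsto (fun n : ℕ => K (t / n) ^ n) atTop (𝓝 L) := by
  have h1 := (hd.isLittleO.comp_tendsto (tendsto_const_div_atTop_nhds_zero_nat t)).norm_left
  have h2 := (Asymptotics.isBigO_refl (fun n : ℕ => (n : ℝ)) atTop).mul_isLittleO h1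
  have h3 : (fun n : ℕ => (n : ℝ) * (t / n - 0)) =O[atTop] fun _ => (1 : ℝ) := by
    refine (Asymptotics.isBigO_const_one ℝ t atTop).congr' ?_ EventuallyEq.rfl
    filter_upwards [eventually_gt_atTop 0] with n hn
    have : (n : ℝ) ≠ 0 := by positivity
    field_simp
    ring
  have h4 := (Asymptotics.isLittleO_one_iff ℝ).1 (h2.trans_isBigO h3)
  refine tendsto_iff_norm_sub_tendsto_zero.2 (squeeze_zero' (Eventually.of_forall fun _ =>
    norm_nonneg _) ?_ h4)
  filter_upwards [eventually_gt_atTop 0] with n hn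
  rw [← hL n hn]
  simpa [h0] using tTrot_pow (hK _) (hE _) n

theorem tTrot_der (g : ℝ) : HasDerivAt (fun s => RZ g * RX s * RZ (-g) *
    (RZ (-g) * RX (-s) * RZ g) - RY (2 * Real.sin (2 * g) * s)) 0 0 := by
  have z1 : RZ g * RZ (-g) = 1 := by rw [← RZ_add, add_neg_cancel, RZ_zero]
  have z2 : RZ (-g) * RZ g = 1 := by rw [← RZ_add, neg_add_cancel, RZ_zero]
  have d1 := tTrot_cs (-Complex.I • PX) (hasDerivAt_id' (0 : ℝ)) rfl
  have d2 := tTrot_cs (-Complex.I • PX) (hasDerivAt_neg' (0 : ℝ)) neg_zero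
  have d3 := tTrot_cs (RY (Real.pi / 2))
    ((hasDerivAt_id' (0 : ℝ)).const_mul (2 * Real.sin (2 * g))) (mul_zero _)
  simp only [← tTrot_RX, ← tTrot_RY] at d1 d2 d3
  refine ((((d1.const_mul (RZ g)).mul_const (RZ (-g))).fun_mul
    ((d2.const_mul (RZ (-g))).mul_const (RZ g))).fun_sub d3).congr_deriv ?_
  rw [neg_zero, RX_zero, mul_one, mul_one, mul_one, z1, z2, mul_one, one_mul, one_smul,
    ← tTrot_id, neg_one_smul, mul_neg, neg_mul]
  abel

end

/-- Work with `open scoped Matrix.Norms.L2Operator` (unitary matrices have norm one,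
`CStarRing.norm_of_mem_unitary`; the topology is the same). For unitary `K E`:
`‖K ^ n - E ^ n‖ ≤ n * ‖K - E‖`. Here `E = RY (c * s)`, `c = 2 * sin (2 * g)`, `s = t / n`,
`E ^ n = RY (t * c)` by `RY_add`, and with `J = RY (π / 2)`, `A = RZ g * PX * RZ (-g)`,
`B = RZ (-g) * PX * RZ g`: `K - E = (cos s ^ 2 - cos (c * s)) • 1 +
(c * sin s * cos s - sin (c * s)) • J + sin s ^ 2 • (A * B)`. The three coefficients vanish at `0`
with derivative `0`, so `n * φ (t / n) → 0`. -/
theorem trotter (g t : ℝ) :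
    Tendsto (fun n : ℕ => (RZ g * RX (t / n) * RZ (-g) * (RZ (-g) * RX (-(t / n)) * RZ g)) ^ n)
      atTop (𝓝 (RY (t * (2 * Real.sin (2 * g))))) := by
  have hp : ∀ (x : ℝ) (n : ℕ), RY x ^ n = RY (n * x) := fun x n => by
    induction n with
    | zero => simp [RY_zero]
    | succ n ih => rw [pow_succ, ih, ← RY_add, Nat.cast_succ, add_one_mul]
  refine tTrot_main (K := fun s => RZ g * RX s * RZ (-g) * (RZ (-g) * RX (-s) * RZ g))
    (E := fun s => RY (2 * Real.sin (2 * g) * s))
    (fun s => mul_mem (mul_mem (mul_mem (uni_RZ _) (uni_RX _)) (uni_RZ _))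
      (mul_mem (mul_mem (uni_RZ _) (uni_RX _)) (uni_RZ _))) (fun s => uni_RY _) (tTrot_der g) ?_
    fun n hn => ?_
  · simp only [neg_zero, RX_zero, mul_one, mul_zero, RY_zero, ← RZ_add]
    simpa using RZ_zero
  · have : (n : ℝ) ≠ 0 := by positivity
    rw [hp]
    congr 1
    field_simp

/-- `aestronglyMeasurable_of_tendsto_ae`, `tendstoInMeasure_of_tendsto_ae`; choose `m n` with
`μ {a | 1 / (n + 1) ≤ dist (P n (m n) a) (W n a)} ≤ 1 / (n + 1)`; the diagonal sequence converges in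
measure; `TendstoInMeasure.exists_seq_tendsto_ae`. -/
theorem diag_ae {Ω E : Type} [MeasurableSpace Ω] [MetricSpace E] (μ : Measure Ω)
    [IsFiniteMeasure μ] (S : Set (Ω → E)) (hS : ∀ P ∈ S, AEStronglyMeasurable P μ)
    {W : ℕ → Ω → E} {U : Ω → E}
    (hW : ∀ n, ∃ P : ℕ → Ω → E, (∀ m, P m ∈ S) ∧
      ∀ᵐ a ∂μ, Tendsto (fun m => P m a) atTop (𝓝 (W n a)))
    (hU : ∀ᵐ a ∂μ, Tendsto (fun n => W n a) atTop (𝓝 (U a))) :
    ∃ P : ℕ → Ω → E, (∀ m, P m ∈ S) ∧ ∀ᵐ a ∂μ, Tendsto (fun m => P m a) atTop (𝓝 (U a)) := by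
  choose P hP1 hP2 using hW
  have mP := fun n m => hS _ (hP1 n m)
  have hWU := tendstoInMeasure_iff_measureReal_dist.1 (tendstoInMeasure_of_tendsto_ae
    (fun n => aestronglyMeasurable_of_tendsto_ae _ (mP n) (hP2 n)) hU)
  have p0 : ∀ n : ℕ, (0 : ℝ) < 1 / (n + 1) := fun n => Nat.one_div_pos_of_nat
  have := fun n => ((tendstoInMeasure_iff_measureReal_dist.1 (tendstoInMeasure_of_tendsto_ae
    (mP n) (hP2 n)) _ (p0 n)).eventually (ge_mem_nhds (p0 n))).exists
  choose m hm using this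
  have t0 := tendsto_one_div_add_atTop_nhds_zero_nat (𝕜 := ℝ)
  have key : TendstoInMeasure μ (fun n => P n (m n)) atTop U := by
    refine tendstoInMeasure_iff_measureReal_dist.2 fun ε hε => ?_
    have t1 := t0.add (hWU _ (half_pos hε))
    rw [add_zero] at t1
    refine squeeze_zero' (Eventually.of_forall fun _ => measureReal_nonneg) ?_ t1
    filter_upwards [t0.eventually (ge_mem_nhds (half_pos hε))] with n hn
    refine le_trans ?_ (add_le_add_left (hm n) _)
    refine (measureReal_mono fun a ha => ?_).trans (measureReal_union_le _ _)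
    by_contra hc
    simp only [Set.mem_union, Set.mem_setOf_eq, not_or, not_le] at hc ha
    linarith [dist_triangle (P n (m n) a) (W n a) (U a), hc.1, hc.2]
  obtain ⟨ns, -, h⟩ := key.exists_seq_tendsto_ae
  exact ⟨fun i => P (ns i) (m (ns i)), fun i => hP1 _ _, h⟩

end

end Vale.Agent.P367.PT
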