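import Vale.Agent.P367T.Ex
import Vale.Agent.P367T.Odd
import Vale.Agent.P367T.Trot

/-! Part T: a Gaussian random field gate emulates labels. -/

set_option linter.all false

namespace Vale.Agent.P367.PT

open MeasureTheory ProbabilityTheory Filter Topology Finset Vale.Agent.P146 Matrix

noncomputable section

theorem gate_mem (β τ : ℝ) : (fun a => RX β * RZ (τ * a)) ∈ Wds :=
  Submonoid.subset_closure ⟨β, τ, rfl⟩

theorem RX_mem (β : ℝ) : (fun _ : ℝ => RX β) ∈ Wds := by
  simpa only [zero_mul, RZ_zero, mul_one] using gate_mem β 0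

theorem RZ_mem (τ : ℝ) : (fun a : ℝ => RZ (τ * a)) ∈ Wds := by
  simpa only [RX_zero, one_mul] using gate_mem 0 τ

theorem Wds_cont {P : ℝ → M2} (hP : P ∈ Wds) : Continuous P ∧ ∀ a, Uni (P a) := by
  induction hP using Submonoid.closure_induction with
  | mem W hW =>
    obtain ⟨β, τ, rfl⟩ := hW
    exact ⟨continuous_const.matrix_mul (cont_RZ.comp (continuous_const.mul continuous_id)),
      fun a => mul_mem (uni_RX _) (uni_RZ _)⟩
  | one => exact ⟨continuous_const, fun _ => one_mem _⟩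
  | mul P Q _ _ hP hQ => exact ⟨hP.1.matrix_mul hQ.1, fun a => mul_mem (hP.2 a) (hQ.2 a)⟩

theorem Wds_gok {P : ℝ → M2} (hP : P ∈ Wds) : GOK P :=
  ⟨fun a b => ((Wds_cont hP).1.matrix_elem a b).measurable, (Wds_cont hP).2⟩

theorem pq_congr {M : Type} [Monoid M] {B B' : ℕ → M} {n : ℕ} (h : ∀ r < n, B r = B' r) :
    pq B n = pq B' n := by
  induction n with
  | zero => rfl
  | succ n ih => rw [pq, pq, h n (by omega), ih fun r hr => h r (by omega)]

theorem Wds_form {P : ℝ → M2} (hP : P ∈ Wds) : ∃ (β τ : ℕ → ℝ) (n : ℕ), ∀ m, n ≤ m → ∀ a,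
    P a = pq (fun r => RX (β r) * RZ (τ r * a)) m := by
  have key : ∃ (β τ : ℕ → ℝ) (n : ℕ), ∀ a, P a = pq (fun r => RX (β r) * RZ (τ r * a)) n := by
    induction hP using Submonoid.closure_induction_left with
    | one => exact ⟨0, 0, 0, fun _ => rfl⟩
    | mul_left W hW P _ ih =>
      obtain ⟨b, t, rfl⟩ := hW
      obtain ⟨β, τ, n, h⟩ := ih
      refine ⟨Function.update β n b, Function.update τ n t, n + 1, fun a => ?_⟩
      rw [pq, Function.update_self, Function.update_self, Pi.mul_apply, h a]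
      congr 1
      exact pq_congr fun r hr => by
        rw [Function.update_of_ne hr.ne, Function.update_of_ne hr.ne]
  obtain ⟨β, τ, n, h⟩ := key
  refine ⟨fun r => if r < n then β r else 0, fun r => if r < n then τ r else 0, n, ?_⟩
  intro m hm a
  induction m, hm using Nat.le_induction with
  | base => exact (h a).trans (pq_congr fun r hr => by simp only [if_pos hr])
  | succ m hm ih =>
    rw [pq, ← ih]
    simp only [if_neg (not_lt.2 hm), RX_zero, zero_mul, RZ_zero, one_mul]

theorem Cl.of_mem {P : ℝ → M2} (hP : P ∈ Wds) : Cl P :=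
  ⟨fun _ => P, fun _ => hP, Eventually.of_forall fun _ => tendsto_const_nhds⟩

theorem Cl.mul {V W : ℝ → M2} (hV : Cl V) (hW : Cl W) : Cl fun a => V a * W a := by
  obtain ⟨P, hP, h⟩ := hV
  obtain ⟨Q, hQ, h'⟩ := hW
  refine ⟨fun n => P n * Q n, fun n => mul_mem (hP n) (hQ n), ?_⟩
  filter_upwards [h, h'] with a ha ha'
  exact ha.mul ha'

theorem Cl.lim {W : ℕ → ℝ → M2} {U : ℝ → M2} (hW : ∀ n, Cl (W n))
    (h : ∀ᵐ a ∂gaussianReal 0 1, Tendsto (fun n => W n a) atTop (𝓝 (U a))) : Cl U :=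
  diag_ae (E := Bool → Bool → ℂ) (gaussianReal 0 1) (Wds : Set (ℝ → M2))
    (fun P hP => Continuous.aestronglyMeasurable (Wds_cont hP).1) hW h

theorem cl_RZ {g : ℝ → ℝ} (hg : Measurable g) (hodd : ∀ a, g (-a) = -g a) :
    Cl fun a => RZ (g a) := by
  refine odd_dense {g | Cl fun a => RZ (g a)} (fun t τ => ?_) (fun f hf g hg => ?_)
    (fun f g hf h => ?_) hg hodd
  · have h1 : Cl fun a => RY (t * Real.sin (τ * a)) := by
      refine ⟨fun n a => (RZ (τ / 2 * a) * RX (t / 2 / n) * RZ (-(τ / 2) * a) *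
        (RZ (-(τ / 2) * a) * RX (-(t / 2 / n)) * RZ (τ / 2 * a))) ^ n, fun n => ?_,
        Eventually.of_forall fun a => ?_⟩
      · exact pow_mem (mul_mem (mul_mem (mul_mem (RZ_mem _) (RX_mem _)) (RZ_mem _))
          (mul_mem (mul_mem (RZ_mem _) (RX_mem _)) (RZ_mem _))) n
      · have h2 := trotter (τ / 2 * a) (t / 2)
        have h3 : t / 2 * (2 * Real.sin (2 * (τ / 2 * a))) = t * Real.sin (τ * a) := by
          rw [show 2 * (τ / 2 * a) = τ * a by ring]
          ring
        rw [h3] at h2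
        simpa only [neg_mul] using h2
    have h2 := ((Cl.of_mem (RX_mem (Real.pi / 4))).mul h1).mul
      (Cl.of_mem (RX_mem (-(Real.pi / 4))))
    simp only [RZ_conj] at h2
    exact h2
  · have h1 := Cl.mul hf hg
    simp only [← RZ_add] at h1
    exact h1
  · refine Cl.lim hf ?_
    filter_upwards [h] with a ha
    exact (cont_RZ.tendsto _).comp ha

theorem cl_Eu {θ : ℝ → ℝ × ℝ × ℝ} (hθ : Measurable θ) (hodd : ∀ a, θ (-a) = -θ a) :
    Cl fun a => Eu (θ a) := by
  have h1 := cl_RZ hθ.fst fun a => by rw [hodd, Prod.fst_neg]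
  have h2 := cl_RZ hθ.snd.fst fun a => by rw [hodd, Prod.snd_neg, Prod.fst_neg]
  have h3 := cl_RZ hθ.snd.snd fun a => by rw [hodd, Prod.snd_neg, Prod.snd_neg]
  have h4 := ((Cl.of_mem (RX_mem (-(Real.pi / 4)))).mul h2).mul (Cl.of_mem (RX_mem (Real.pi / 4)))
  simp only [RY_conj] at h4
  exact (h1.mul h4).mul h3

theorem cont_Eu : Continuous Eu :=
  ((cont_RZ.comp continuous_fst).matrix_mul (cont_RY.comp continuous_snd.fst)).matrix_mul
    (cont_RZ.comp continuous_snd.snd)

/-- reduction to odd Euler angles -/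
theorem gram_odd {Λ : Type} [MeasurableSpace Λ] {ν : Measure Λ} [IsProbabilityMeasure ν]
    {γ : ℕ → ℝ} {V : ℕ → Λ → M2} {G : ℕ → ℕ → ℂ} (hV : ∀ j, GOK (V j)) (hG : IsGram ν γ V G) :
    ∃ θ : ℕ → ℝ → ℝ × ℝ × ℝ, (∀ j, Measurable (θ j)) ∧ (∀ j a, θ j (-a) = -θ j a) ∧
      IsGram (gaussianReal 0 1) γ (fun j a => Eu (θ j a)) G := by
  choose φ hφ c hc hE using fun j => euler (hV j)
  have hΘ : Measurable fun l j => φ j l := measurable_pi_lambda _ hφ
  have : IsProbabilityMeasure (ν.map fun l j => φ j l) :=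
    Measure.isProbabilityMeasure_map hΘ.aemeasurable
  obtain ⟨Φ, hΦ, hmap⟩ := exists_even_map (ν.map fun l j => φ j l)
  have hΦ' : Measurable fun a : ℝ => Φ |a| := hΦ.comp measurable_abs
  have hs : Measurable fun a : ℝ => (SignType.sign a : ℝ) := by
    have : (fun a : ℝ => (SignType.sign a : ℝ)) =
        fun a => if 0 < a then 1 else if a < 0 then -1 else 0 := by
      funext a
      rw [sign_apply]
      split_ifs <;> simp
    rw [this]
    exact Measurable.ite measurableSet_Ioi measurable_const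
      (Measurable.ite measurableSet_Iio measurable_const measurable_const)
  refine ⟨fun j a => (SignType.sign a : ℝ) • Φ |a| j,
    fun j => hs.smul ((measurable_pi_apply j).comp hΦ'), fun j a => by
      simp only [abs_neg, Left.sign_neg, SignType.coe_neg, neg_smul], fun j k => ?_⟩
  have hF : Measurable fun x : ℕ → ℝ × ℝ × ℝ =>
      vamp (max j k) G (zw γ (fun i => Eu (x i)) k ++ zw γ (fun i => Eu (x i)) j) :=
    meas_vamp (V := fun i (x : ℕ → ℝ × ℝ × ℝ) => Eu (x i))
      (fun i a b => ((cont_Eu.comp (continuous_apply i)).matrix_elem a b).measurable) γ _ j k G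
  have h1 := integral_map (μ := ν) hΘ.aemeasurable hF.aestronglyMeasurable
  rw [← hmap, integral_map hΦ'.aemeasurable hF.aestronglyMeasurable] at h1
  rw [hG j k]
  simp only [hE]
  simp only [fun l => vamp_phase (N := max j k) (G := G) γ (fun i => Eu (φ i l))
    (fun i => hc i l) j k]
  rw [← h1]
  have := nullSingletonClass_gaussianReal (μ := 0) (one_ne_zero (α := NNReal))
  refine integral_congr_ae ?_
  filter_upwards [Measure.ae_ne (gaussianReal 0 1) 0] with a ha
  rcases lt_or_gt_of_ne ha with h | h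
  · simp only [sign_neg h, SignType.coe_neg_one, neg_smul, one_smul]
    exact (vamp_flip γ (fun i => Eu_neg _) j k).symm
  · simp only [sign_pos h, SignType.coe_one, one_smul]

theorem _root_.Vale.Agent.P367.partT : PartT := by
  rintro Λ _ ν _ v ⟨γ, V, G, p, hV, hG, rfl⟩ ε hε
  obtain ⟨θ, hθ, hodd, hG'⟩ := gram_odd hV hG
  choose P hP hlim using fun j => cl_Eu (hθ j) (hodd j)
  choose H hH using fun n => exists_gram (gaussianReal 0 1) γ fun j => P j n
  have h1 := gram_lim (V := fun n j => P j n) (fun n j => Wds_gok (hP j n)) hH hG' hlim p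
  obtain ⟨m, hm⟩ := (h1.eventually (lt_mem_nhds (sub_lt_self (val3 γ G p) hε))).exists
  choose β τ n hn using fun j => Wds_form (hP j m)
  obtain ⟨N, hN0, hN⟩ : ∃ N, 0 < N ∧ ∀ j < p, n j ≤ N :=
    ⟨(range p).sup n + 1, Nat.succ_pos _, fun j hj =>
      (Finset.le_sup (f := n) (mem_range.2 hj)).trans (Nat.le_succ _)⟩
  obtain ⟨K, hK⟩ := exists_gram (gaussianReal 0 1) (up N γ)
    fun i a => RX (β (i / N) (i % N)) * RZ (τ (i / N) (i % N) * a)
  refine ⟨val3 (up N γ) K (N * p), ⟨up N γ, fun i => τ (i / N) (i % N), fun i => β (i / N) (i % N),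
    K, N * p, hK, rfl⟩, ?_⟩
  rw [val3_up hN0, (hK.pt_refine hN0).pt_loc (hH m) fun j hj => funext fun a => ?_]
  · exact hm.le
  · rw [hn j N (hN j hj) a]
    refine pq_congr fun r hr => ?_
    rw [Nat.mul_add_div hN0, Nat.div_eq_of_lt hr, Nat.mul_add_mod, Nat.mod_eq_of_lt hr,
      Nat.add_zero]

end

end Vale.Agent.P367.PT
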