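import Vale.Agent.P367T.Defs

/-! Part T: the calculus of words. -/

set_option linter.all false

namespace Vale.Agent.P367.PT

open MeasureTheory ProbabilityTheory Filter Topology Finset Vale.Agent.P146 Matrix

noncomputable section

/-- the word of `U_j⁻¹ mid U_j` -/
def zm (γ : ℕ → ℝ) (A : ℕ → M2) (j : ℕ) (mid : List Lt) : List Lt :=
  fw γ A j ++ (mid ++ ((fw γ A j).map Lt.inv).reverse)

theorem zm_zero (γ : ℕ → ℝ) (A : ℕ → M2) (mid : List Lt) : zm γ A 0 mid = mid := by
  simp [zm, fw]

theorem zm_succ (γ : ℕ → ℝ) (A : ℕ → M2) (j : ℕ) (mid : List Lt) :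
    zm γ A (j + 1) mid =
      zm γ A j (.w j (γ j) :: .m (A j) :: (mid ++ [.m (A j)ᴴ, .w j (-γ j)])) := by
  simp [zm, fw, Lt.inv]

theorem zw_eq (γ : ℕ → ℝ) (A : ℕ → M2) (j : ℕ) : zw γ A j = zm γ A j [.m PZ] := rfl

/-- induction principle for relations between words -/
theorem zm_ind {X : Type} (γ : X → ℕ → ℝ) (A : X → ℕ → M2) (P : (X → List Lt) → Prop) (j : ℕ)
    (hP : ∀ i < j, ∀ u, P u → P fun x =>
      .w i (γ x i) :: .m (A x i) :: (u x ++ [.m (A x i)ᴴ, .w i (-γ x i)])) :
    ∀ u, P u → P fun x => zm (γ x) (A x) j (u x) := by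
  induction j with
  | zero => intro u hu; simpa only [zm_zero] using hu
  | succ j ih =>
    intro u hu
    simp only [zm_succ]
    exact ih (fun i hi => hP i (by omega)) _ (hP j (by omega) u hu)

variable {N : ℕ} {G : ℕ → ℕ → ℂ}

theorem ampl_congr {t t' : List Lt} (h : ampl N G t = ampl N G t') (r : List Lt) :
    ampl N G (r ++ t) = ampl N G (r ++ t') := by
  induction r with
  | nil => exact h
  | cons y r ih =>
    funext a x
    cases y <;> simp only [List.cons_append, ampl, ih]

theorem ampl_w_zero (i : ℕ) (t : List Lt) : ampl N G (.w i 0 :: t) = ampl N G t := by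
  funext a x
  simp [ampl]

theorem ampl_mm (A B : M2) (t : List Lt) :
    ampl N G (.m A :: .m B :: t) = ampl N G (.m (B * A) :: t) := by
  funext a x
  simp only [ampl, Matrix.mul_apply, Fintype.sum_bool]
  ring

theorem ampl_m_one (t : List Lt) : ampl N G (.m 1 :: t) = ampl N G t := by
  funext a x
  cases a <;> simp [ampl]

/-! ### Phases -/

theorem vamp_phase (γ : ℕ → ℝ) (A : ℕ → M2) {c : ℕ → ℂ} (hc : ∀ i, ‖c i‖ = 1) (j k : ℕ) :
    vamp N G (zw γ (fun i => c i • A i) k ++ zw γ (fun i => c i • A i) j) =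
      vamp N G (zw γ A k ++ zw γ A j) := by
  have key : ∀ j, ∀ (d : ℂ) (t t' : List Lt), (∀ a h, ampl N G t a h = d * ampl N G t' a h) →
      ∀ a h, ampl N G (zw γ (fun i => c i • A i) j ++ t) a h =
        d * ampl N G (zw γ A j ++ t') a h := by
    intro j
    refine zm_ind (X := Bool) (fun _ => γ) (fun b => if b then (fun i => c i • A i) else A)
      (fun u => ∀ (d : ℂ) (t t' : List Lt), (∀ a h, ampl N G t a h = d * ampl N G t' a h) →
        ∀ a h, ampl N G (u true ++ t) a h = d * ampl N G (u false ++ t') a h) j ?_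
      (fun _ => [.m PZ]) ?_
    · intro i _ u hu d t t' ht a h
      have h1 : c i * star (c i) = 1 := by
        rw [Complex.star_def, Complex.mul_conj, Complex.normSq_eq_norm_sq, hc i]
        simp
      have h2 := hu (star (c i) * d) (.m (c i • A i)ᴴ :: .w i (-γ i) :: t)
        (.m (A i)ᴴ :: .w i (-γ i) :: t') (fun a h => by
          simp only [ampl, ht, Matrix.conjTranspose_smul, Matrix.smul_apply, smul_eq_mul,
            Fintype.sum_bool]
          ring)
      simp only [if_true, Bool.false_eq_true, if_false, List.cons_append, List.append_assoc,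
        List.nil_append, ampl, h2, Matrix.smul_apply, smul_eq_mul, Fintype.sum_bool]
      linear_combination (d * Complex.exp (Complex.I * ((spin a * γ i *
        (Bf N G (Pi.single i 1) h).im : ℝ) : ℂ)) * (A i true a * ampl N G (u false ++
          .m (A i)ᴴ :: .w i (-γ i) :: t') true (h - Pi.single i (spin a * γ i)) +
        A i false a * ampl N G (u false ++ .m (A i)ᴴ :: .w i (-γ i) :: t') false
          (h - Pi.single i (spin a * γ i)))) * h1
    · intro d t t' ht a h
      simp only [List.cons_append, List.nil_append, ampl, ht, Fintype.sum_bool]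
      ring
  have h1 := key k 1 _ _ (key j 1 [] [] fun a h => (one_mul _).symm)
  simp only [List.append_nil, one_mul] at h1
  simp only [vamp, h1]

/-! ### The spin flip -/

theorem spin_not (a : Bool) : spin (!a) = -spin a := by
  cases a <;> simp [spin]

theorem Bf_neg_right (h k : ℕ → ℝ) : Bf N G h (-k) = -Bf N G h k := by
  simp [Bf]

theorem Bf_neg_neg (h : ℕ → ℝ) : Bf N G (-h) (-h) = Bf N G h h := by
  simp [Bf]

theorem flip_w {d : ℂ} {t t' : List Lt} (ht : ∀ a h, ampl N G t (!a) (-h) = d * ampl N G t' a h)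
    (i : ℕ) (g : ℝ) (a : Bool) (h : ℕ → ℝ) :
    ampl N G (.w i g :: t) (!a) (-h) = d * ampl N G (.w i g :: t') a h := by
  have h1 : -h - Pi.single i (spin (!a) * g) = -(h - Pi.single i (spin a * g)) := by
    rw [spin_not, neg_mul, Pi.single_neg]
    abel
  simp only [ampl]
  rw [h1, ht, Bf_neg_right, spin_not, Complex.neg_im]
  simp only [neg_mul, mul_neg, neg_neg]
  ring

theorem flip_m {d e : ℂ} {t t' : List Lt}
    (ht : ∀ a h, ampl N G t (!a) (-h) = d * ampl N G t' a h) {A B : M2}
    (hA : ∀ a b, B (!a) (!b) = e * A a b) (a : Bool) (h : ℕ → ℝ) :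
    ampl N G (.m B :: t) (!a) (-h) = e * d * ampl N G (.m A :: t') a h := by
  have h1 := ht true h
  have h2 := ht false h
  have h3 := hA true a
  have h4 := hA false a
  simp only [Bool.not_true, Bool.not_false] at h1 h2 h3 h4
  simp only [ampl, Fintype.sum_bool, h1, h2, h3, h4]
  ring

theorem vamp_flip (γ : ℕ → ℝ) {A B : ℕ → M2} (hA : ∀ i a b, B i (!a) (!b) = A i a b) (j k : ℕ) :
    vamp N G (zw γ B k ++ zw γ B j) = vamp N G (zw γ A k ++ zw γ A j) := by
  have key : ∀ j, ∀ (d : ℂ) (t t' : List Lt),
      (∀ a h, ampl N G t (!a) (-h) = d * ampl N G t' a h) →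
      ∀ a h, ampl N G (zw γ B j ++ t) (!a) (-h) = -1 * d * ampl N G (zw γ A j ++ t') a h := by
    intro j
    refine zm_ind (X := Bool) (fun _ => γ) (fun b => if b then B else A)
      (fun u => ∀ (d : ℂ) (t t' : List Lt), (∀ a h, ampl N G t (!a) (-h) = d * ampl N G t' a h) →
        ∀ a h, ampl N G (u true ++ t) (!a) (-h) = -1 * d * ampl N G (u false ++ t') a h) j ?_
      (fun _ => [.m PZ]) ?_
    · intro i _ u hu d t t' ht
      have h2 := hu _ _ _ (flip_m (flip_w ht i (-γ i)) (e := 1) (A := (A i)ᴴ) (B := (B i)ᴴ)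
        fun a b => by rw [one_mul, conjTranspose_apply, conjTranspose_apply, hA])
      have h3 := flip_w (flip_m h2 (e := 1) (A := A i) (B := B i)
        fun a b => by rw [one_mul, hA]) i (γ i)
      simpa only [one_mul, if_true, Bool.false_eq_true, if_false, List.cons_append,
        List.append_assoc, List.nil_append] using h3
    · intro d t t' ht
      exact flip_m ht fun a b => by cases a <;> cases b <;> simp [PZ, spin]
  have h1 := key k _ _ _ (key j 1 [] [] fun a h => by simp only [ampl, Bf_neg_neg, one_mul])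
  simp only [List.append_nil] at h1
  have h2 := h1 true 0
  have h3 := h1 false 0
  simp only [Bool.not_true, Bool.not_false, neg_zero] at h2 h3
  simp only [vamp, Fintype.sum_bool, h2, h3]
  ring

/-! ### Refinement -/

/-- insertion of zeros -/
def up (n : ℕ) (h : ℕ → ℝ) : ℕ → ℝ := fun i => if n ∣ i then h (i / n) else 0

/-- products of gates; the gate `0` is applied first -/
def pq {M : Type} [Monoid M] (B : ℕ → M) : ℕ → M
  | 0 => 1
  | r + 1 => B r * pq B r

variable {n : ℕ}

theorem up_mul (hn : 0 < n) (h : ℕ → ℝ) (j : ℕ) : up n h (n * j) = h j := by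
  simp [up, Nat.mul_div_cancel_left _ hn]

theorem up_single (hn : 0 < n) (j : ℕ) (x : ℝ) : up n (Pi.single j x) = Pi.single (n * j) x := by
  funext i
  by_cases hi : n ∣ i
  · obtain ⟨k, rfl⟩ := hi
    rw [up_mul hn, Pi.single_apply, Pi.single_apply]
    simp [hn.ne']
  · have : i ≠ n * j := fun h => hi (h ▸ Dvd.intro _ rfl)
    simp [up, hi, this]

theorem up_sub (h k : ℕ → ℝ) : up n (h - k) = up n h - up n k := by
  funext i
  simp only [up, Pi.sub_apply]
  split_ifs <;> simp

theorem up_zero : up n 0 = 0 := by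
  funext i
  simp [up]

theorem sum_up {M : Type} [AddCommMonoid M] (hn : 0 < n) (N : ℕ) {F : ℕ → M}
    (hF : ∀ i, ¬n ∣ i → F i = 0) : ∑ i ∈ range (n * N), F i = ∑ j ∈ range N, F (n * j) := by
  symm
  refine Finset.sum_of_injOn (fun j => n * j) (fun a _ b _ h => Nat.eq_of_mul_eq_mul_left hn h)
    (fun j hj => mem_range.2 (Nat.mul_lt_mul_of_pos_left (mem_range.1 hj) hn)) (fun i hi h => ?_)
    fun _ _ => rfl
  refine hF i ?_
  rintro ⟨k, rfl⟩
  exact h ⟨k, mem_coe.2 (mem_range.2 (Nat.lt_of_mul_lt_mul_left (mem_range.1 hi))), rfl⟩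

theorem Bf_up (hn : 0 < n) (h k : ℕ → ℝ) :
    Bf (n * N) G (up n h) (up n k) = Bf N (fun i j => G (n * i) (n * j)) h k := by
  unfold Bf
  rw [sum_up hn N fun i hi => by simp [up, hi]]
  refine sum_congr rfl fun i _ => ?_
  rw [sum_up hn N fun j hj => by simp [up, hj]]
  simp only [up_mul hn]

theorem vamp_up (hn : 0 < n) (γ : ℕ → ℝ) (B : ℕ → M2) (j k : ℕ) :
    vamp (n * N) G (zw (up n γ) B (n * k) ++ zw (up n γ) B (n * j)) =
      vamp N (fun i j => G (n * i) (n * j))
        (zw γ (fun i => pq (fun r => B (n * i + r)) n) k ++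
          zw γ (fun i => pq (fun r => B (n * i + r)) n) j) := by
  let R : List Lt → List Lt → Prop := fun t t' =>
    ∀ a h, ampl (n * N) G t a (up n h) = ampl N (fun i j => G (n * i) (n * j)) t' a h
  have Rw : ∀ i g t t', R t t' → R (.w (n * i) g :: t) (.w i g :: t') := by
    intro i g t t' ht a h
    simp only [ampl]
    rw [← up_single hn, ← up_single hn, ← up_sub, Bf_up hn, ht]
  have Rm : ∀ A t t', R t t' → R (.m A :: t) (.m A :: t') := by
    intro A t t' ht a h
    simp only [ampl, ht _ h]
  have key : ∀ j (u u' : List Lt), (∀ t t', R t t' → R (u ++ t) (u' ++ t')) → ∀ t t', R t t' →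
      R (zm (up n γ) B (n * j) u ++ t)
        (zm γ (fun i => pq (fun r => B (n * i + r)) n) j u' ++ t') := by
    intro j
    induction j with
    | zero => intro u u' hu; simpa only [Nat.mul_zero, zm_zero] using hu
    | succ j ih =>
      have inner : ∀ q < n, ∀ u u' : List Lt, (∀ t t', R t t' →
          R (.w (n * j) (γ j) :: .m (pq (fun r => B (n * j + r)) (q + 1)) :: (u ++
            .m (pq (fun r => B (n * j + r)) (q + 1))ᴴ :: .w (n * j) (-γ j) :: t)) (u' ++ t')) →
          ∀ t t', R t t' → R (zm (up n γ) B (n * j + q + 1) u ++ t)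
            (zm γ (fun i => pq (fun r => B (n * i + r)) n) j u' ++ t') := by
        intro q
        induction q with
        | zero =>
          intro _ u u' hu
          rw [zm_succ]
          refine ih _ _ fun t t' ht => ?_
          simpa only [Nat.add_zero, up_mul hn, pq, mul_one, List.cons_append, List.append_assoc,
            List.nil_append, zero_add] using hu t t' ht
        | succ q ihq =>
          intro hq u u' hu
          have h0 : up n γ (n * j + (q + 1)) = 0 := by
            have : ¬n ∣ n * j + (q + 1) := fun h =>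
              absurd (Nat.le_of_dvd (Nat.succ_pos q) ((Nat.dvd_add_right (Dvd.intro _ rfl)).1 h))
                (not_le.2 hq)
            simp only [up, if_neg this]
          rw [zm_succ, h0, neg_zero]
          refine ihq (by omega) _ _ fun t t' ht a h => ?_
          rw [← hu t t' ht a h]
          refine congrFun (congrFun (ampl_congr ?_ [.w (n * j) (γ j)]) a) _
          simp only [List.cons_append, List.append_assoc, List.nil_append]
          refine (ampl_congr (ampl_w_zero _ _) [.m _]).trans ((ampl_mm _ _ _).trans ?_)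
          refine ampl_congr (ampl_congr ?_ u) [.m _]
          refine (ampl_congr (ampl_w_zero _ _) [.m _]).trans ((ampl_mm _ _ _).trans ?_)
          rw [← conjTranspose_mul]
          rfl
      intro u u' hu
      obtain ⟨q, rfl⟩ : ∃ q, n = q + 1 := ⟨n - 1, by omega⟩
      rw [zm_succ γ]
      refine inner q (Nat.lt_succ_self q) u _ fun t t' ht => ?_
      simp only [List.cons_append, List.append_assoc, List.nil_append]
      exact Rw _ _ _ _ (Rm _ _ _ (hu _ _ (Rm _ _ _ (Rw _ _ _ _ ht))))
  have h0 : R [] [] := fun a h => by simp only [ampl, Bf_up hn]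
  have h1 := key k [.m PZ] [.m PZ] (Rm PZ) _ _ (key j [.m PZ] [.m PZ] (Rm PZ) _ _ h0)
  simp only [List.append_nil] at h1
  unfold vamp
  refine sum_congr rfl fun a _ => ?_
  rw [zw_eq, zw_eq, zw_eq, zw_eq, ← h1 a 0, up_zero]

end

end Vale.Agent.P367.PT
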